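import Vale.Agent.P088.R2.H455.J.K6
import Vale.Agent.P088.R2.H455.T.P2

/-!
# P088, T2: two pairs with metrics in one conformal class near a constant metric
-/

set_option linter.all false

open Bundle Manifold MeasureTheory Set Filter Topology
open scoped ContDiff Matrix ENNReal

noncomputable section

namespace Vale.Agent.P088.R2.H455.J

open Vale.Agent.P088 Vale.Agent.P088.B Vale.Agent.P088.EYM
open Vale.Agent.P088.H207 (gl ch_at src_at gch_at IsDom IsOpn inM MatchO IsBall oball kball rad)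
open Vale.Agent.P088.H207.R (vO vO_sub vO_compact Rg rg_of nbK reg_between dom_pt)
open Vale.Agent.P088.HY.H794 (chR chR_sm chR_nonneg chR_le chR_one chR_zero chR_bd ClR oB isOpen_oB
  in_r in_r' mul_scale)
open Vale.Agent.P088.R2.H455.T (RigTR ClRC)

universe u

section

variable {n : ℕ}

/-- The cut-off of `f - G`, extended by `G`. -/
def exG (r : ℝ) (G : Matrix (Fin n) (Fin n) ℝ) (f : LR.MF n) : LR.MF n :=
  fun y => G + chR (r⁻¹ • y) • (f y - G)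

variable {r : ℝ} {G : Matrix (Fin n) (Fin n) ℝ} {f : LR.MF n}

lemma exG_in (hr : 0 < r) {y : LR.V n} (hy : ∑ j, y j ^ 2 ≤ (3 / 2 * r) ^ 2) :
    exG r G f y = f y := by
  unfold exG
  rw [chR_one ((in_r hr).2 (by rw [mul_pow] at hy; linarith)), one_smul]
  abel

lemma exG_out (hr : 0 < r) {y : LR.V n} (hy : 49 / 16 * r ^ 2 ≤ ∑ j, y j ^ 2) :
    exG r G f y = G := by
  unfold exG
  rw [chR_zero ((in_r' hr).2 hy), zero_smul, add_zero]

lemma exG_sm (hf : LR.SmM f) : LR.SmM (exG r G f) := fun i j =>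
  contDiff_const.add ((chR_sm.comp (contDiff_const_smul _)).mul ((hf i j).sub contDiff_const))

lemma exG_pos (hG : G.PosDef) (hf : ∀ y, (f y).PosDef) (y : LR.V n) : (exG r G f y).PosDef := by
  have e : exG r G f y = (1 - chR (r⁻¹ • y)) • G + chR (r⁻¹ • y) • f y := by
    unfold exG
    rw [smul_sub, sub_smul, one_smul]; abel
  rw [e]
  have h1 := chR_nonneg (r⁻¹ • y)
  have h2 := chR_le (r⁻¹ • y)
  rcases eq_or_lt_of_le h1 with h3 | h3
  · rw [← h3, zero_smul, add_zero, sub_zero, one_smul]; exact hG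
  · rw [add_comm]
    exact ((hf y).smul h3).add_posSemidef (hG.posSemidef.smul (by linarith))

/-- The scale. -/
lemma sc_le {s ε : ℝ} (hs : 0 < s) {k : ℕ} {F : Type*} [NormedAddCommGroup F]
    [NormedSpace ℝ F] {φ : LR.V n → F} {l : ℕ} (hl : l ≤ k)
    {x : LR.V n} (h : ‖iteratedFDeriv ℝ l φ x‖ ≤ ε) :
    s ^ l * ‖iteratedFDeriv ℝ l φ x‖ ≤ max 1 s ^ k * ε := by
  have h1 : s ^ l ≤ max 1 s ^ k := (pow_le_pow_left₀ hs.le (le_max_right 1 s) l).trans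
    (pow_le_pow_right₀ (le_max_left 1 s) hl)
  exact mul_le_mul h1 h (norm_nonneg _) (by positivity)

end

/-- A regular neighborhood with connected complement. -/
theorem reg_conn {n : ℕ} {K W : Set (Fin n → ℝ)} (hK : IsCompact K) (hW : IsOpen W)
    (hKW : K ⊆ W) (hc : IsPreconnected Kᶜ) : ∃ Ω : Set (Fin n → ℝ), IsOpen Ω ∧
      interior (closure Ω) = Ω ∧ Bornology.IsBounded Ω ∧ K ⊆ Ω ∧ closure Ω ⊆ W ∧
      IsPreconnected (closure Ω)ᶜ := by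
  have e : (univ : Set (Fin n → ℝ)) \ K = Kᶜ := (compl_eq_univ_sdiff K).symm
  obtain ⟨K₃, hK₃, h1, h2, h3⟩ := Vale.Agent.P088.H207.R.nbT (X := Fin n → ℝ) (I := univ)
    isPreconnected_univ isOpen_univ hK hW hKW (subset_univ _) (by rw [e]; exact hc) (by
      intro x hx
      rw [e] at hx
      obtain ⟨r, hr, hb⟩ := Metric.isOpen_iff.1 hK.isClosed.isOpen_compl x hx
      refine ⟨Metric.ball x (r / 2), Metric.isOpen_ball, (convex_ball x _).isPreconnected,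
        Metric.mem_ball_self (by linarith), ?_⟩
      rw [e]
      exact Metric.closure_ball_subset_closedBall.trans
        ((Metric.closedBall_subset_ball (by linarith)).trans hb))
  rw [← compl_eq_univ_sdiff] at h3
  have h4 : closure (interior K₃) ⊆ K₃ := closure_minimal interior_subset hK₃.isClosed
  refine ⟨interior K₃, isOpen_interior, Subset.antisymm (interior_mono h4)
    (interior_maximal subset_closure isOpen_interior), hK₃.isBounded.subset interior_subset, h1,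
    h4.trans h2, ?_⟩
  refine h3.subset_closure (compl_subset_compl.2 h4) ?_
  rw [closure_compl]
  exact compl_subset_compl.2 subset_closure

/-- Rigidity of a conformal class near a constant metric. -/
theorem rigK_near {n N : ℕ} [NeZero n] {k : ℕ} {B ε : ℝ} (hε : 0 < ε) (hRig : RigTR n N k B ε)
    (R : ℝ) (hR : 0 < R) : ∃ δ : ℝ, 0 < δ ∧ ∃ s : ℝ, 0 < s ∧
    (∀ y : Fin n → ℝ, (∀ j, |y j| ≤ R) → ∑ j, y j ^ 2 ≤ (3 / 2 * s) ^ 2) ∧
    s * (max 1 s ^ k * δ) ≤ ε ∧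
    ∀ G : Matrix (Fin n) (Fin n) ℝ, G.PosDef → (∀ i j, |G i j| ≤ B) → B⁻¹ ≤ G.det →
    ∀ h : LR.MF n, LR.SmM h → (∀ y, (h y).PosDef) → (∀ i j, LR.Cl k δ (fun y => h y i j - G i j)) →
    ∀ Ω : Set (Fin n → ℝ), IsOpen Ω → interior (closure Ω) = Ω → IsPreconnected (closure Ω)ᶜ →
    (∀ y ∈ Ω, ∀ j, |y j| ≤ R) → RigK n N Ω (exG s G h) (fun A => ∀ i, ClRC k s ε (A i)) := by
  obtain ⟨X, hX1, hX⟩ := chR_bd n k
  obtain ⟨s, hs⟩ : ∃ s : ℝ, s = n * R := ⟨_, rfl⟩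
  have hn1 : (1 : ℝ) ≤ n := by exact_mod_cast Nat.one_le_iff_ne_zero.2 (NeZero.ne n)
  have hs0 : 0 < s := by rw [hs]; positivity
  have hRs : R ≤ s := by rw [hs]; nlinarith
  obtain ⟨D, hD⟩ : ∃ D : ℝ, D = 2 ^ k * (X * max 1 s ^ k) := ⟨_, rfl⟩
  have hD0 : 0 < D := by rw [hD]; positivity
  have hm0 : 0 < max 1 s ^ k := by positivity
  refine ⟨min (ε / D) (ε / (s * max 1 s ^ k)), lt_min (by positivity) (by positivity), s, hs0,
    fun y hy => ?_, ?_, ?_⟩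
  · calc ∑ j, y j ^ 2 ≤ ∑ _j : Fin n, R ^ 2 := by
          refine Finset.sum_le_sum fun j _ => ?_
          rw [← sq_abs]
          exact pow_le_pow_left₀ (abs_nonneg _) (hy j) 2
      _ = n * R ^ 2 := by simp
      _ ≤ (3 / 2 * s) ^ 2 := by
          rw [hs]
          nlinarith [sq_nonneg R, mul_nonneg (sub_nonneg.2 hn1) (sq_nonneg R),
            mul_nonneg (mul_nonneg (sub_nonneg.2 hn1) (sub_nonneg.2 hn1)) (sq_nonneg R)]
  · calc s * (max 1 s ^ k * min (ε / D) (ε / (s * max 1 s ^ k)))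
        ≤ s * (max 1 s ^ k * (ε / (s * max 1 s ^ k))) :=
          mul_le_mul_of_nonneg_left (mul_le_mul_of_nonneg_left (min_le_right _ _) hm0.le) hs0.le
      _ = ε := by field_simp
  intro G hG hGb hGd h hh hhp hhcl Ω hΩ hreg hcn hΩR c₁ c₂ hc1 hc2 hp1 hp2 hcoff A₁ A₂ hA1 hA2 hAoff
    hY1 hY2 hor
  have hcl1 : ∀ i j, ClR k s ε (fun y => exG s G h y i j - G i j) := by
    intro i j l hl y
    have e : (fun y => exG s G h y i j - G i j) = fun y => chR (s⁻¹ • y) * (h y i j - G i j) := by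
      funext y
      show G i j + chR (s⁻¹ • y) * (h y i j - G i j) - G i j = _
      ring
    rw [e]
    refine (mul_scale hs0 isOpen_univ chR_sm (((hh i j).sub contDiff_const).contDiffOn) hX
      (by linarith) (A := max 1 s ^ k * (ε / D)) (fun l hl y _ => sc_le hs0 hl
        ((hhcl i j l hl y).trans (min_le_left _ _))) hl (mem_univ y)).trans ?_
    calc 2 ^ l * (X * (max 1 s ^ k * (ε / D))) ≤ 2 ^ k * (X * (max 1 s ^ k * (ε / D))) :=
          mul_le_mul_of_nonneg_right (pow_le_pow_right₀ (by norm_num) hl) (by positivity)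
      _ = D * (ε / D) := by rw [hD]; ring
      _ = ε := by field_simp
  have hout : ∀ y : Fin n → ℝ, (∃ j, 4 * s < |y j|) → exG s G h y = G := by
    rintro y ⟨j, hj⟩
    refine exG_out hs0 ?_
    have h1 : y j ^ 2 ≤ ∑ j, y j ^ 2 :=
      Finset.single_le_sum (f := fun j => y j ^ 2) (fun i _ => sq_nonneg _) (Finset.mem_univ j)
    have h2 : (4 * s) ^ 2 ≤ y j ^ 2 := by
      rw [← sq_abs (y j)]
      exact pow_le_pow_left₀ (by positivity) hj.le 2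
    nlinarith
  exact hRig s hs0 G hG hGb hGd Ω hΩ hreg hcn (fun y hy j => (hΩR y hy j).trans (by linarith))
    (exG s G h) (exG_sm hh) (exG_pos hG hhp) hout hcl1 c₁ c₂ hc1 hc2 hp1 hp2 hcoff A₁ A₂ hA1 hA2
    hAoff hY1 hY2 hor

/-- **Two pairs with metrics in one conformal class near a constant metric.** -/
theorem near_T {n : ℕ} [NeZero n] (hn : 3 ≤ n) {N : ℕ} (hN : 1 ≤ N) {k : ℕ} {B ε : ℝ}
    (hε : 0 < ε) (hRig : RigTR n N k B ε) (R : ℝ) (hR : 0 < R) : ∃ δ : ℝ, 0 < δ ∧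
    ∀ G : Matrix (Fin n) (Fin n) ℝ, G.PosDef → (∀ i j, |G i j| ≤ B) → 1 / B ≤ G.det →
    ∀ h : LR.MF n, LR.SmM h → (∀ y, (h y).PosDef) → (∀ i j, LR.Cl k δ (fun y => h y i j - G i j)) →
    ∀ α : LR.Cn n N, LR.SmU α → (∀ i, LR.U.ClC k δ (α i)) →
    ∀ {M : Type u} [TopologicalSpace M]
    [ChartedSpace (EuclideanHalfSpace n) M] [IsManifold (𝓡∂ n) ∞ M] [T2Space M] [CompactSpace M]
    [ConnectedSpace M] (Z : At n M) (_ : Z = at_ n M) (Γ O₀ : Set M) (_ : IsOpen O₀)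
    (_ : Γ = O₀ ∩ bd Z) (_ : Γ.Nonempty) (P P' Q Q' : Pair Z N)
    (_ : Vale.Agent.P088.B.SameData Γ P Q)
    (_ : Related Γ P P') (_ : Related Γ Q Q') (p : M) (W : Set (Fin n → ℝ))
    (_ : IsOpn Z p W) (_ : ConfO h P' p W) (_ : ConfO h Q' p W) (_ : ConnO α P' p W)
    (_ : BddA k δ Q' p W) (K : Set (Fin n → ℝ)) (_ : IsCompact K)
    (_ : K ⊆ W) (_ : ∀ y ∈ K, ∀ j, |y j| ≤ R) (_ : IsPreconnected Kᶜ)
    (_ : IsPreconnected ((bd Z)ᶜ \ inM Z p K)) (_ : B8.PwLe (inM Z p K)ᶜ Γ P' Q') (_ : ∀ x ∉ inM Z p K, Q'.A x = P'.A x),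
    Related Γ P Q := by
  obtain ⟨δ, hδ, s, hs, hin, hsδ, hmain⟩ := rigK_near hε hRig (R + 1) (by linarith)
  refine ⟨δ, hδ, ?_⟩
  intro G hG hGb hGd h hh hhp hhcl α hα hαc M _ _ _ _ _ _ Z hZ Γ O₀ hO₀ hΓ hne P P' Q Q' hd hP hQ
    p W hW hc1 hc2 hcon hbd K hK hKW hKR hKc hc0 hpw hAoff
  have hWo : IsOpen (W ∩ {y : Fin n → ℝ | ∀ j, |y j| < R + 1}) := by
    refine hW.1.inter ?_
    have e1 : {y : Fin n → ℝ | ∀ j, |y j| < R + 1} = ⋂ j, {y : Fin n → ℝ | |y j| < R + 1} := by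
      ext y
      simp
    rw [e1]
    exact isOpen_iInter_of_finite fun j => isOpen_lt (by fun_prop) continuous_const
  obtain ⟨Ω, g1, g2, g3, g4, g5, g7⟩ := reg_conn hK hWo (fun y hy =>
    ⟨hKW hy, fun j => lt_of_le_of_lt (hKR y hy j) (by linarith)⟩) hKc
  have g6 : Ω ⊆ W := fun y hy => (g5 (subset_closure hy)).1
  have hΩR : ∀ y ∈ Ω, ∀ j, |y j| ≤ R + 1 := fun y hy j => ((g5 (subset_closure hy)).2 j).le
  have hdom : IsDom Z p Ω := ⟨g1, g2, g3, fun y hy => hW.2 y (g5 hy).1⟩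
  have hW' : IsOpn Z p (W ∩ {y : Fin n → ℝ | ∀ j, |y j| < R + 1}) :=
    ⟨hWo, fun y hy => hW.2 y hy.1⟩
  have hrig := hmain G hG hGb (by rwa [one_div] at hGd) h hh hhp hhcl Ω g1 g2 g7 hΩR
  have hαR : ∀ i, ClRC k s ε (α i) := by
    intro i a b l hl y
    have h1 := sc_le hs hl (hαc i a b l hl y)
    calc s ^ (l + 1) * ‖iteratedFDeriv ℝ l (fun x => α i x a b) y‖
        = s * (s ^ l * ‖iteratedFDeriv ℝ l (fun x => α i x a b) y‖) := by rw [pow_succ]; ring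
      _ ≤ s * (max 1 s ^ k * δ) := mul_le_mul_of_nonneg_left h1 hs.le
      _ ≤ ε := hsδ
  subst hZ
  refine dom_cls hn hN (exG_sm hh) (exG_pos hG hhp) hα hrig hαR (at_ n M) rfl Γ O₀ hO₀ hΓ hne P P'
    Q Q' hd hP hQ p hW' hdom g5 ?_ ?_ K hK g4 hc0 hpw hAoff ?_
  · rintro x ⟨hx, hx'⟩
    rw [exG_in hs (hin _ fun j => (hx'.2 j).le)]
    exact ⟨hc1 x ⟨hx, hx'.1⟩, hc2 x ⟨hx, hx'.1⟩⟩
  · exact fun x hx i => hcon x ⟨hx.1, g6 hx.2⟩ i
  · intro β hβ hin' hout i a b l hl y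
    rcases ifd_glue g1 hK.isClosed g4 (φ := fun i y =>
      ach (at_ n M) Q'.A p i (y + (at_ n M).ch p p)) hin' hout i a b l y with ⟨hy, e⟩ | e
    · rw [e]
      have h1 := sc_le hs hl (ach_ifd Q' hW hbd (g6 hy) i a b hl)
      calc s ^ (l + 1) * ‖iteratedFDeriv ℝ l
            (fun y => ach (at_ n M) Q'.A p i (y + (at_ n M).ch p p) a b) y‖
          = s * (s ^ l * ‖iteratedFDeriv ℝ l
            (fun y => ach (at_ n M) Q'.A p i (y + (at_ n M).ch p p) a b) y‖) := by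
              rw [pow_succ]; ring
        _ ≤ s * (max 1 s ^ k * δ) := mul_le_mul_of_nonneg_left h1 hs.le
        _ ≤ ε := hsδ
    · rw [e]
      exact hαR i a b l hl y

/-- **Two pairs with metrics in one conformal class**: (I) which differ in a small ball; (II) near a
constant metric. -/
theorem conf_two (hT : T.RowT2) {n : ℕ} [NeZero n] (hn : 3 ≤ n) {N : ℕ} (hN : 1 ≤ N) :
    ∃ k : ℕ, (∀ B : ℝ, 0 < B → ∃ r₀ : ℝ, 0 < r₀ ∧ ∀ r : ℝ, 0 < r → r ≤ r₀ → ∀ h : LR.MF n,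
    (∀ i j, ContDiffOn ℝ ∞ (fun y => h y i j) {y | ∑ i, y i ^ 2 < (2 * r) ^ 2}) →
    (∀ y ∈ {y : Fin n → ℝ | ∑ i, y i ^ 2 < (2 * r) ^ 2}, (h y).PosDef ∧
      ∀ i j, ∀ l ≤ k, ‖iteratedFDeriv ℝ l (fun y => h y i j) y‖ ≤ B) → 1 / B ≤ (h 0).det →
    ∀ {M : Type u} [TopologicalSpace M]
    [ChartedSpace (EuclideanHalfSpace n) M] [IsManifold (𝓡∂ n) ∞ M] [T2Space M] [CompactSpace M]
    [ConnectedSpace M] (Z : At n M) (_ : Z = at_ n M) (Γ O₀ : Set M) (_ : IsOpen O₀)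
    (_ : Γ = O₀ ∩ bd Z) (_ : Γ.Nonempty) (P P' Q Q' : Pair Z N)
    (_ : Vale.Agent.P088.B.SameData Γ P Q)
    (_ : Related Γ P P') (_ : Related Γ Q Q') (p : M) (_ : IsBall Z p (2 * r))
    (_ : ConfO h P' p {y | ∑ i, y i ^ 2 < (2 * r) ^ 2})
    (_ : ConfO h Q' p {y | ∑ i, y i ^ 2 < (2 * r) ^ 2})
    (_ : BddA k B P' p {y | ∑ i, y i ^ 2 < (2 * r) ^ 2})
    (_ : BddA k B Q' p {y | ∑ i, y i ^ 2 < (2 * r) ^ 2})
    (_ : B8.PwLe (kball Z p r)ᶜ Γ P' Q') (_ : ∀ x ∉ kball Z p r, Q'.A x = P'.A x),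
    Related Γ P Q) ∧
    ∀ B R : ℝ, 0 < B → 0 < R → ∃ δ : ℝ, 0 < δ ∧
    ∀ G : Matrix (Fin n) (Fin n) ℝ, G.PosDef → (∀ i j, |G i j| ≤ B) → 1 / B ≤ G.det →
    ∀ h : LR.MF n, LR.SmM h → (∀ y, (h y).PosDef) → (∀ i j, LR.Cl k δ (fun y => h y i j - G i j)) →
    ∀ α : LR.Cn n N, LR.SmU α → (∀ i, LR.U.ClC k δ (α i)) →
    ∀ {M : Type u} [TopologicalSpace M]
    [ChartedSpace (EuclideanHalfSpace n) M] [IsManifold (𝓡∂ n) ∞ M] [T2Space M] [CompactSpace M]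
    [ConnectedSpace M] (Z : At n M) (_ : Z = at_ n M) (Γ O₀ : Set M) (_ : IsOpen O₀)
    (_ : Γ = O₀ ∩ bd Z) (_ : Γ.Nonempty) (P P' Q Q' : Pair Z N)
    (_ : Vale.Agent.P088.B.SameData Γ P Q)
    (_ : Related Γ P P') (_ : Related Γ Q Q') (p : M) (W : Set (Fin n → ℝ))
    (_ : IsOpn Z p W) (_ : ConfO h P' p W) (_ : ConfO h Q' p W) (_ : ConnO α P' p W)
    (_ : BddA k δ Q' p W) (K : Set (Fin n → ℝ)) (_ : IsCompact K)
    (_ : K ⊆ W) (_ : ∀ y ∈ K, ∀ j, |y j| ≤ R) (_ : IsPreconnected Kᶜ)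
    (_ : IsPreconnected ((bd Z)ᶜ \ inM Z p K)) (_ : B8.PwLe (inM Z p K)ᶜ Γ P' Q') (_ : ∀ x ∉ inM Z p K, Q'.A x = P'.A x),
    Related Γ P Q := by
  obtain ⟨k₀, hk₀⟩ := T.rigTR hn (T.unitT hT hn hN)
  have hmono : ∀ {B ε : ℝ}, RigTR n N k₀ B ε → RigTR n N (k₀ + 1) B ε := by
    intro B ε h R hR G hG hGb hGd Ω hΩ hreg hcn hΩb h' s1 p1 hout c1 c₁ c₂ hc1 hc2 hp1 hp2 hcoff A₁ A₂
      hA1 hA2 hAoff hY1 hY2 hor
    exact h R hR G hG hGb hGd Ω hΩ hreg hcn hΩb h' s1 p1 hout (fun i j l hl => c1 i j l (by omega)) c₁ c₂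
      hc1 hc2 hp1 hp2 hcoff A₁ A₂ hA1 hA2 hAoff (fun i a b l hl => hY1 i a b l (by omega))
      (fun i a b l hl => hY2 i a b l (by omega)) hor
  refine ⟨k₀ + 1, fun B hB => ?_, fun B R hB hR => ?_⟩
  · obtain ⟨ε, hε, h⟩ := hk₀ B hB
    exact small_T hn hN (by omega) hB hε (hmono h)
  · obtain ⟨ε, hε, h⟩ := hk₀ B hB
    exact near_T hn hN hε (hmono h) R hR

end Vale.Agent.P088.R2.H455.J

end
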