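import Vale.Agent.P088.H207.St8

/-!
# P088: two pairs with metrics in one conformal class on a set of a chart, definitions
-/

open Set
open scoped Matrix

noncomputable section

namespace Vale.Agent.P088.R2.H455.J

open Vale.Agent.P088.B Vale.Agent.P088.H207

universe u

variable {n N : ℕ} [NeZero n] {M : Type u} {Z : At n M}

/-- In the chart at `p`, on `W`: `g_{ij} = t h_{ij}(· - y(p))` with a function `t`. -/
def ConfO (h : V n → Matrix (Fin n) (Fin n) ℝ) (Q : Pair Z N) (p : M) (W : Set (V n)) : Prop :=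
  ∀ x ∈ inM Z p W, ∃ t : ℝ, gch Z Q.g p (Z.ch p x) = t • h (Z.ch p x - Z.ch p p)

/-- In the chart at `p`, on `W`: the derivatives of the components of the connection of order at
most `k` are at most `B`. -/
def BddA (k : ℕ) (B : ℝ) (Q : Pair Z N) (p : M) (W : Set (V n)) : Prop :=
  ∀ x ∈ inM Z p W, ∀ i a b, ∀ l ≤ k,
    ‖iteratedFDeriv ℝ l (fun y : V n => ach Z Q.A p i y a b) (Z.ch p x)‖ ≤ B

/-- In the chart at `p`, on `W`: `A_i = α_i(· - y(p))`. -/
def ConnO (α : Fin n → V n → Matrix (Fin N) (Fin N) ℂ) (Q : Pair Z N) (p : M) (W : Set (V n)) :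
    Prop :=
  ∀ x ∈ inM Z p W, ∀ i, ach Z Q.A p i (Z.ch p x) = α i (Z.ch p x - Z.ch p p)

end Vale.Agent.P088.R2.H455.J

end
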