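import Vale.Agent.P088.R2.H455.J.K5
import Vale.Agent.P088.R2.H455.J.StT

/-!
# P088, T2: two pairs with metrics in one conformal class, small balls and constant metrics
-/

set_option linter.all false

open Bundle Manifold MeasureTheory Set Filter Topology
open scoped ContDiff Matrix ENNReal

noncomputable section

namespace Vale.Agent.P088.R2.H455.J

open Vale.Agent.P088 Vale.Agent.P088.B Vale.Agent.P088.EYM
open Vale.Agent.P088.H207 (gl ch_at src_at gch_at IsDom IsOpn inM MatchO IsBall oball kball rad)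
open Vale.Agent.P088.H207.R (vO vO_sub vO_compact Rg rg_of nbK reg_between dom_pt)
open Vale.Agent.P088.H207.L (ach_at)
open Vale.Agent.P088.H207.J (tr tri tr_tri tri_tr tr_cd tri_cd tr_fd int_tr)
open Vale.Agent.P088.HY.H794 (chR chR_sm chR_nonneg chR_le chR_one chR_zero chR_bd exR exR_in
  exR_out exR_sm exR_pos exR_near exR_nh ClR oB isOpen_oB zero_mem_oB reg_oB closure_oB
  abs_le_of_oB norm_le_of_oB in_r in_r' scal_ifd cont_sq)
open Vale.Agent.P088.R2.H455.T (RigTR ClRC)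

universe u

section

variable {n N : ℕ} [NeZero n] {M : Type u} [TopologicalSpace M]
  [ChartedSpace (EuclideanHalfSpace n) M] [IsManifold (𝓡∂ n) ∞ M] [T2Space M] [CompactSpace M]

theorem ach_tri (P : Pair (at_ n M) N) {p : M} {W : Set (Fin n → ℝ)}
    (h : IsOpn (at_ n M) p W) {y : Fin n → ℝ} (hy : y ∈ W) (i : Fin n) :
    letI := borel M
    ((B2.one P).loc p).B i (tri (xc n p p) y) =
      S.toE (ach (at_ n M) P.A p i (y + (at_ n M).ch p p)) := by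
  letI := borel M
  have e1 := ach_at P p (op_tg h hy) i
  have e2 : WithLp.ofLp (tri (xc n p p) y) = y + (at_ n M).ch p p := by
    rw [ch_at]
    funext j
    show (xc n p p) j + y j = y j + (xc n p p) j
    ring
  rw [e2] at e1
  exact e1

theorem ach_cd (P : Pair (at_ n M) N) {p : M} {W : Set (Fin n → ℝ)}
    (h : IsOpn (at_ n M) p W) (i : Fin n) (a b : Fin N) :
    ContDiffOn ℝ ∞ (fun y => ach (at_ n M) P.A p i (y + (at_ n M).ch p p) a b) W := by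
  letI := borel M
  haveI : BorelSpace M := ⟨rfl⟩
  obtain ⟨-, hok, -, -⟩ := TM.fLoc n N M
  have e2 : ContDiffOn ℝ ∞ (fun x : E n => S.ent a b (((B2.one P).loc p).B i x)) (tg n p) :=
    (S.ent a b).contDiff.comp_contDiffOn ((hok (B2.one P) p).B_smooth i)
  refine (e2.comp (tri_cd (xc n p p)).contDiffOn fun y hy => op_tg h hy).congr fun y hy => ?_
  show ach (at_ n M) P.A p i (y + (at_ n M).ch p p) a b =
    S.ent a b (((B2.one P).loc p).B i (tri (xc n p p) y))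
  rw [ach_tri P h hy i, S.ent_apply, S.ofE_toE]

theorem ach_sk (P : Pair (at_ n M) N) {p : M} {W : Set (Fin n → ℝ)}
    (h : IsOpn (at_ n M) p W) (i : Fin n) {y : Fin n → ℝ} (hy : y ∈ W) :
    (ach (at_ n M) P.A p i (y + (at_ n M).ch p p))ᴴ =
      -ach (at_ n M) P.A p i (y + (at_ n M).ch p p) := by
  letI := borel M
  haveI : BorelSpace M := ⟨rfl⟩
  obtain ⟨m, hm⟩ : ∃ m, m = ach (at_ n M) P.A p i (y + (at_ n M).ch p p) := ⟨_, rfl⟩
  have h1 := ach_tri P h hy i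
  rw [← hm] at h1 ⊢
  apply S.toE_inj
  rw [S.toE_star, S.toE_neg, ← h1]
  exact (B2.one P).A.skew _ _

/-- The derivatives of the components in the centred coordinates. -/
theorem ach_ifd (P : Pair (at_ n M) N) {p : M} {W : Set (Fin n → ℝ)} {k : ℕ} {B : ℝ}
    (h : IsOpn (at_ n M) p W) (hB : BddA k B P p W) {y : Fin n → ℝ} (hy : y ∈ W) (i : Fin n)
    (a b : Fin N) {l : ℕ} (hl : l ≤ k) :
    ‖iteratedFDeriv ℝ l (fun y => ach (at_ n M) P.A p i (y + (at_ n M).ch p p) a b) y‖ ≤ B := by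
  obtain ⟨x, hx, hxy⟩ := op_pt h hy
  have h1 := hB x hx i a b l hl
  rw [hxy] at h1
  have h2 := iteratedFDeriv_comp_add_right (𝕜 := ℝ)
    (f := fun y => ach (at_ n M) P.A p i y a b) l ((at_ n M).ch p p) y
  rw [h2]
  exact h1

end

/-- The glued connection inherits the bounds. -/
theorem ifd_glue {n N : ℕ} {Ω K : Set (Fin n → ℝ)} (hΩ : IsOpen Ω) (hK : IsClosed K) (hKΩ : K ⊆ Ω)
    {α β φ : LR.Cn n N} (h1 : ∀ i, ∀ y ∈ Ω, β i y = φ i y) (h2 : ∀ i, ∀ y ∉ K, β i y = α i y)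
    (i : Fin n) (a b : Fin N) (l : ℕ) (y : Fin n → ℝ) :
    (y ∈ Ω ∧ iteratedFDeriv ℝ l (fun y => β i y a b) y =
      iteratedFDeriv ℝ l (fun y => φ i y a b) y) ∨
    iteratedFDeriv ℝ l (fun y => β i y a b) y = iteratedFDeriv ℝ l (fun y => α i y a b) y := by
  by_cases hy : y ∈ Ω
  · left
    refine ⟨hy, ?_⟩
    have e : (fun y => β i y a b) =ᶠ[𝓝 y] fun y => φ i y a b := by
      filter_upwards [hΩ.mem_nhds hy] with x hx
      rw [h1 i x hx]
    exact (e.iteratedFDeriv ℝ l).self_of_nhds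
  · right
    have e : (fun y => β i y a b) =ᶠ[𝓝 y] fun y => α i y a b := by
      filter_upwards [hK.isOpen_compl.mem_nhds (fun h => hy (hKΩ h))] with x hx
      rw [h2 i x hx]
    exact (e.iteratedFDeriv ℝ l).self_of_nhds

/-- **Two pairs which differ in a small ball and whose metrics are conformal to each other there.** -/
theorem small_T {n : ℕ} [NeZero n] (hn : 3 ≤ n) {N : ℕ} (hN : 1 ≤ N) {k : ℕ} (hk : 1 ≤ k)
    {B ε : ℝ} (hB : 0 < B) (hε : 0 < ε) (hR : RigTR n N k B ε) :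
    ∃ r₀ : ℝ, 0 < r₀ ∧ ∀ r : ℝ, 0 < r → r ≤ r₀ → ∀ h : LR.MF n,
    (∀ i j, ContDiffOn ℝ ∞ (fun y => h y i j) {y | ∑ i, y i ^ 2 < (2 * r) ^ 2}) →
    (∀ y ∈ {y : Fin n → ℝ | ∑ i, y i ^ 2 < (2 * r) ^ 2}, (h y).PosDef ∧
      ∀ i j, ∀ l ≤ k, ‖iteratedFDeriv ℝ l (fun y => h y i j) y‖ ≤ B) → 1 / B ≤ (h 0).det →
    ∀ {M : Type u} [TopologicalSpace M]
    [ChartedSpace (EuclideanHalfSpace n) M] [IsManifold (𝓡∂ n) ∞ M] [T2Space M] [CompactSpace M]
    [ConnectedSpace M] (Z : At n M) (_ : Z = at_ n M) (Γ O₀ : Set M) (_ : IsOpen O₀)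
    (_ : Γ = O₀ ∩ bd Z) (_ : Γ.Nonempty) (P P' Q Q' : Pair Z N)
    (_ : Vale.Agent.P088.B.SameData Γ P Q)
    (_ : Related Γ P P') (_ : Related Γ Q Q') (p : M) (_ : IsBall Z p (2 * r))
    (_ : ConfO h P' p {y | ∑ i, y i ^ 2 < (2 * r) ^ 2})
    (_ : ConfO h Q' p {y | ∑ i, y i ^ 2 < (2 * r) ^ 2})
    (_ : BddA k B P' p {y | ∑ i, y i ^ 2 < (2 * r) ^ 2})
    (_ : BddA k B Q' p {y | ∑ i, y i ^ 2 < (2 * r) ^ 2})
    (_ : B8.PwLe (kball Z p r)ᶜ Γ P' Q') (_ : ∀ x ∉ kball Z p r, Q'.A x = P'.A x),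
    Related Γ P Q := by
  obtain ⟨X, hX1, hX, r₀, hr₀, hr₀1, hr₀e, hcell⟩ := rigK_cell hk hB hε hR
  refine ⟨r₀, hr₀, ?_⟩
  intro r hr hrr h hhs hhb hdet M _ _ _ _ _ _ Z hZ Γ O₀ hO₀ hΓ hne P P' Q Q' hd hP hQ p hp hc1 hc2
    ha1 ha2 hpw hAoff
  have hr1 : r ≤ 1 := hrr.trans hr₀1
  have hre : r * (2 ^ k * (X * B)) ≤ ε :=
    (mul_le_mul_of_nonneg_right hrr (by positivity)).trans hr₀e
  have hre2 : r * B ≤ ε := by
    have h1 : B ≤ 2 ^ k * (X * B) := by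
      have h2 : (1 : ℝ) ≤ 2 ^ k := one_le_pow₀ (by norm_num)
      have h3 : B ≤ X * B := by nlinarith
      nlinarith
    exact (mul_le_mul_of_nonneg_left h1 hr.le).trans hre
  subst hZ
  -- points of the ball
  have hpt : ∀ y : Fin n → ℝ, ∑ j, y j ^ 2 ≤ (2 * r) ^ 2 → 0 < (y + (at_ n M).ch p p) 0 ∧
      ∃ x ∈ (at_ n M).src p, (at_ n M).ch p x = y + (at_ n M).ch p p := by
    intro y hy
    refine hp.2 _ ?_
    show ∑ i, ((y + (at_ n M).ch p p) i - (at_ n M).ch p p i) ^ 2 ≤ (2 * r) ^ 2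
    simpa using hy
  have hopn : IsOpn (at_ n M) p (oB n (2 * r)) := ⟨isOpen_oB _, fun y hy => hpt y (le_of_lt hy)⟩
  have hsub : ∀ {a b : ℝ}, 0 < a → a ≤ b → oB n a ⊆ oB n b := fun ha hab y hy =>
    lt_of_lt_of_le hy (pow_le_pow_left₀ ha.le hab 2)
  have h32 : (0 : ℝ) < 3 / 2 * r := by positivity
  have h54 : (0 : ℝ) < 5 / 4 * r := by positivity
  have hW2 : oB n (3 / 2 * r) ⊆ oB n (2 * r) := hsub h32 (by linarith)
  have hcl : closure (oB n (5 / 4 * r)) ⊆ oB n (3 / 2 * r) := by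
    rw [closure_oB h54]
    intro y hy
    have h3 : ∑ j, y j ^ 2 ≤ (5 / 4 * r) ^ 2 := hy
    show ∑ j, y j ^ 2 < (3 / 2 * r) ^ 2
    have : 0 < r ^ 2 := by positivity
    nlinarith
  have hopn' : IsOpn (at_ n M) p (oB n (3 / 2 * r)) :=
    ⟨isOpen_oB _, fun y hy => hpt y (le_of_lt (hW2 hy))⟩
  have hdom : IsDom (at_ n M) p (oB n (5 / 4 * r)) := by
    refine ⟨isOpen_oB _, reg_oB h54, ?_, fun y hy => hpt y (le_of_lt (hW2 (hcl hy)))⟩
    refine (Metric.isBounded_closedBall (x := (0 : Fin n → ℝ)) (r := 5 / 4 * r)).subset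
      fun y hy => ?_
    rw [mem_closedBall_zero_iff]
    exact norm_le_of_oB h54 hy
  have hcn : IsPreconnected (closure (oB n (5 / 4 * r)))ᶜ := by
    have e : (closure (oB n (5 / 4 * r)))ᶜ = {y : Fin n → ℝ | (5 / 4 * r) ^ 2 < ∑ j, y j ^ 2} := by
      rw [closure_oB h54]
      ext y
      show ¬ (∑ j, y j ^ 2 ≤ (5 / 4 * r) ^ 2) ↔ (5 / 4 * r) ^ 2 < ∑ j, y j ^ 2
      exact not_le
    rw [e]
    exact conn_out (by omega) h54
  have hrig := hcell r hr hrr h hhs (fun y hy => (hhb y hy).1) (fun y hy => (hhb y hy).2) hdet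
    (oB n (5 / 4 * r)) hdom.1 hdom.2.1 hcn (hsub h54 (by linarith))
  -- the compact set
  have hcpt : IsCompact {y : Fin n → ℝ | ∑ j, y j ^ 2 ≤ r ^ 2} := by
    refine Metric.isCompact_of_isClosed_isBounded (isClosed_le cont_sq continuous_const) ?_
    refine (Metric.isBounded_closedBall (x := (0 : Fin n → ℝ)) (r := r)).subset fun y hy => ?_
    rw [mem_closedBall_zero_iff, pi_norm_le_iff_of_nonneg hr.le]
    exact fun j => abs_le_of_oB hr hy j
  letI := borel M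
  haveI : BorelSpace M := ⟨rfl⟩
  have hCB : IsCB n p (2 * r) := Vale.Agent.P088.H207.isCB_of hp
  have hkb : kball (at_ n M) p r = inM (at_ n M) p {y : Fin n → ℝ | ∑ j, y j ^ 2 ≤ r ^ 2} := rfl
  have hin : inM (at_ n M) p {y : Fin n → ℝ | ∑ j, y j ^ 2 ≤ r ^ 2} = cb n p r := by
    rw [← hkb]
    exact Vale.Agent.P088.H207.kball_at hCB hr.le (by linarith)
  have hb : bd (at_ n M) = (𝓡∂ n).boundary M := bd_at
  have hmi : (bd (at_ n M))ᶜ = Mi n M := by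
    rw [hb, ← ModelWithCorners.compl_interior, compl_compl]
  have hconn : IsPreconnected ((bd (at_ n M))ᶜ \
      inM (at_ n M) p {y : Fin n → ℝ | ∑ j, y j ^ 2 ≤ r ^ 2}) := by
    rw [hin, hmi]
    have hsubM : (xc n p).symm '' Metric.ball (xc n p p) (2 * r) ⊆ Mi n M := by
      intro x hx
      exact cRungeB_cb_mi TM.fLoc hCB (image_mono Metric.ball_subset_closedBall hx)
    exact Vale.Agent.P088.EYM.O.D779.top_diff (TM.fConn n M).2.1
      (cRungeB_cb_closed hCB (by linarith))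
      (cRungeB_B_open TM.fLoc hCB) hsubM
      (image_mono (Metric.closedBall_subset_ball (by linarith)))
      ⟨_, mem_image_of_mem _ (Metric.mem_closedBall_self hr.le)⟩
      (cRungeB_A_conn (by omega) hCB hr (by linarith))
  have hKΩ : {y : Fin n → ℝ | ∑ j, y j ^ 2 ≤ r ^ 2} ⊆ oB n (5 / 4 * r) := by
    intro y hy
    have h4 : ∑ j, y j ^ 2 ≤ r ^ 2 := hy
    show ∑ j, y j ^ 2 < (5 / 4 * r) ^ 2
    have : 0 < r ^ 2 := by positivity
    nlinarith
  -- the connection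
  obtain ⟨a, ha⟩ : ∃ a : LR.Cn n N, a = fun i y =>
      ach (at_ n M) P'.A p i (y + (at_ n M).ch p p) := ⟨_, rfl⟩
  have has : ∀ i p' q, ContDiffOn ℝ ∞ (fun y => a i y p' q) (oB n (2 * r)) := by
    rw [ha]; exact fun i p' q => ach_cd P' hopn i p' q
  have hask : ∀ i, ∀ y ∈ oB n (2 * r), (a i y)ᴴ = -a i y := by
    rw [ha]; exact fun i y hy => ach_sk P' hopn i hy
  have hab : ∀ y ∈ oB n (2 * r), ∀ i p' q, ∀ l ≤ k,
      ‖iteratedFDeriv ℝ l (fun y => a i y p' q) y‖ ≤ B := by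
    rw [ha]; exact fun y hy i p' q l hl => ach_ifd P' hopn ha1 hy i p' q hl
  have hαc : ∀ i, ClRC k r ε (exA r a i) := fun i p' q l hl y =>
    (exA_cl hr hr1 hB.le hX (by linarith) has hab i p' q l hl y).trans hre
  refine dom_cls hn hN (exR_sm hr hhs) (exR_pos hr fun y hy => (hhb y hy).1)
    (exA_smU hr has hask) hrig hαc (at_ n M) rfl Γ O₀ hO₀ hΓ hne P P' Q Q' hd hP hQ p
    (W := oB n (3 / 2 * r)) hopn' hdom hcl ?_ ?_ _ hcpt hKΩ hconn (by rw [← hkb]; exact hpw)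
    (by rw [← hkb]; exact hAoff) ?_
  · rintro x ⟨hx, hx'⟩
    rw [exR_in hr (le_of_lt hx')]
    exact ⟨hc1 x ⟨hx, hW2 hx'⟩, hc2 x ⟨hx, hW2 hx'⟩⟩
  · rintro x ⟨hx, hx'⟩ i
    rw [exA_in hr (le_of_lt (hcl (subset_closure hx'))), ha]
    show _ = ach (at_ n M) P'.A p i ((at_ n M).ch p x - (at_ n M).ch p p + (at_ n M).ch p p)
    rw [sub_add_cancel]
  · intro β hβ hin hout i p' q l hl y
    rcases ifd_glue (isOpen_oB (5 / 4 * r)) hcpt.isClosed hKΩ (φ := fun i y =>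
      ach (at_ n M) Q'.A p i (y + (at_ n M).ch p p)) hin hout i p' q l y with ⟨hy, e⟩ | e
    · rw [e]
      have h1 := ach_ifd Q' hopn ha2 (hsub h54 (by linarith) hy) i p' q hl
      have h2 : r ^ (l + 1) ≤ r := by
        calc r ^ (l + 1) ≤ r ^ 1 := pow_le_pow_of_le_one hr.le hr1 (by omega)
          _ = r := pow_one r
      exact (mul_le_mul h2 h1 (norm_nonneg _) hr.le).trans hre2
    · rw [e]
      exact hαc i p' q l hl y

end Vale.Agent.P088.R2.H455.J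

end
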