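import Vale.Agent.P088.H207.N4
import Vale.Agent.P088.H207.L3

/-!
# P088: the orthogonality relation for two pairs on a compact set of a chart
-/

set_option linter.all false

open Bundle Manifold MeasureTheory Set Filter Topology
open scoped ContDiff Matrix ENNReal

noncomputable section

namespace Vale.Agent.P088.R2.H455.J

open Vale.Agent.P088 Vale.Agent.P088.EYM Vale.Agent.P088.EYM.O Vale.Agent.P088.H207
open Vale.Agent.P088.H207.R (runge_seqK grad_estK en_diffK)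
open Vale.Agent.P088.H207.L (tend_int bnd ed_one sec sec_cd sec_fd sec_pd sec_lop sec_ed fea
  fea_cont)
open Vale.Agent.P088.H207.J (tr tri tr_tri tri_tr tr_cd tri_cd tr_fd int_tr)

universe u

variable {n N : ℕ} [NeZero n] {M : Type u} [TopologicalSpace M]
  [ChartedSpace (EuclideanHalfSpace n) M] [IsManifold (𝓡∂ n) ∞ M] [T2Space M] [CompactSpace M]
  [MeasurableSpace M] [BorelSpace M] [ConnectedSpace M]

/-- The orthogonality relation of two pairs. -/
theorem orthGK {P Q : One n N M} {Γ : Set M} (hΓ : RelBd n Γ)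
    (hne : Γ.Nonempty) (hS : SameD P Q Γ) {p : M} {V K K₁ : Set (E n)} (hV : IsOpen V)
    (hbt : V ⊆ tg n p) (hpos : V ⊆ {y | 0 < y 0}) (hK : IsCompact K) (hKK : K ⊆ interior K₁)
    (hK₁ : IsCompact K₁) (hK₁V : K₁ ⊆ V)
    (hconn : IsPreconnected (Mi n M \ (xc n p).symm '' K₁))
    (hA : ∀ m, m ∉ (xc n p).symm '' K → ∀ X : TangentSpace (𝓡∂ n) m, P.A.form m X = Q.A.form m X)
    (hg : ∀ m, m ∉ (xc n p).symm '' K → ∀ v w : TangentSpace (𝓡∂ n) m,
      Q.g.inner m v w = P.g.inner m v w)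
    {F G : E n → Fib N} (hF : Sol (P.loc p) V F) (hG : Sol (Q.loc p) V G) :
    ∫ y in K, ed (Q.loc p) G F y = ∫ y in K, ed (P.loc p) G F y := by
  obtain ⟨hrel, hok, hbdy, hsm⟩ := TM.fLoc n N M
  have hbH : V ⊆ Hs n := fun y hy => le_of_lt (show 0 < y 0 from hpos hy)
  have hbr : RelOpen V := CHarm_relOpen_of_open hV hbH
  have hKR : K ⊆ V := hKK.trans (interior_subset.trans hK₁V)
  have hokP : (P.loc p).Ok V := CHarm_ok_mono (hok P p) hbt
  have hokQ : (Q.loc p).Ok V := CHarm_ok_mono (hok Q p) hbt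
  obtain ⟨⟨hsP, hsQ, -⟩, -⟩ := Vale.Agent.P088.EYM.cData TM.fUniq TM.fForm n N M P Q Γ hΓ hne hS
  obtain ⟨uk, huk, hlu⟩ := runge_seqK hΓ hne hsP hV hbt hpos hK₁ hK₁V hconn hF.1 hF.2
  obtain ⟨wk, hwk, hlw⟩ := runge_seqK hΓ hne hsQ hV hbt hpos hK₁ hK₁V hconn hG.1 hG.2
  obtain ⟨C, hC⟩ := grad_estK n N (P.loc p) hK hKK hK₁ hK₁V hV hokP hbH
  obtain ⟨C', hC'⟩ := grad_estK n N (Q.loc p) hK hKK hK₁ hK₁V hV hokQ hbH
  set I : ℕ → ℝ := fun k => C * ∫ y in K₁, ‖lu (𝓡∂ n) p (uk k) y - F y‖ ^ 2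
  set I' : ℕ → ℝ := fun k => C' * ∫ y in K₁, ‖lu (𝓡∂ n) p (wk k) y - G y‖ ^ 2
  have hI : Tendsto I atTop (𝓝 0) := by
    have := hlu.const_mul C
    rwa [mul_zero] at this
  have hI' : Tendsto I' atTop (𝓝 0) := by
    have := hlw.const_mul C'
    rwa [mul_zero] at this
  have he : Tendsto (fun k => √(I k) + √(I' k)) atTop (𝓝 0) := by
    have h1 := (Real.continuous_sqrt.tendsto 0).comp hI
    have h2 := (Real.continuous_sqrt.tendsto 0).comp hI'
    rw [Real.sqrt_zero] at h1 h2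
    have := h1.add h2
    rwa [add_zero] at this
  have husol : ∀ k, Sol (P.loc p) V (lu (𝓡∂ n) p (uk k)) := by
    intro k
    obtain ⟨f, hf, hu⟩ := huk k
    have h1 := TM.fHarm n N M P f (uk k) hu p
    exact ⟨h1.1.mono hbt, fun x hx => h1.2 x (hbt hx)⟩
  have hwsol : ∀ k, Sol (Q.loc p) V (lu (𝓡∂ n) p (wk k)) := by
    intro k
    obtain ⟨f, hf, hu⟩ := hwk k
    have h1 := TM.fHarm n N M Q f (wk k) hu p
    exact ⟨h1.1.mono hbt, fun x hx => h1.2 x (hbt hx)⟩
  have hpdsub : ∀ {u v : E n → Fib N}, ContDiffOn ℝ ∞ u V →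
      ContDiffOn ℝ ∞ v V → ∀ j, ∀ y ∈ V,
      pd j (fun y => u y - v y) y = pd j u y - pd j v y := by
    intro u v hu hv j y hy
    rw [cRunge_pd (hpos hy), cRunge_pd (hpos hy), cRunge_pd (hpos hy), fderiv_fun_sub
      ((hu.contDiffAt (hV.mem_nhds hy)).differentiableAt (by simp))
      ((hv.contDiffAt (hV.mem_nhds hy)).differentiableAt (by simp))]
    rfl
  have hEu : ∀ k, ∀ y ∈ K,
      ‖lu (𝓡∂ n) p (uk k) y - F y‖ + ∑ j, ‖pd j (fun y => lu (𝓡∂ n) p (uk k) y - F y) y‖ ≤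
        √(I k) + √(I' k) := fun k y hy =>
    (Real.le_sqrt_of_sq_le (hC _ (cClosed_sol_sub hbr hokP (husol k) hF) y hy)).trans
      (le_add_of_nonneg_right (Real.sqrt_nonneg _))
  have hEw : ∀ k, ∀ y ∈ K,
      ‖lu (𝓡∂ n) p (wk k) y - G y‖ + ∑ j, ‖pd j (fun y => lu (𝓡∂ n) p (wk k) y - G y) y‖ ≤
        √(I k) + √(I' k) := fun k y hy =>
    (Real.le_sqrt_of_sq_le (hC' _ (cClosed_sol_sub hbr hokQ (hwsol k) hG) y hy)).trans
      (le_add_of_nonneg_left (Real.sqrt_nonneg _))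
  have key : ∀ T : One n N M, (T.loc p).Ok V →
      Tendsto (fun k => ∫ y in K,
        ed (T.loc p) (lu (𝓡∂ n) p (wk k)) (lu (𝓡∂ n) p (uk k)) y) atTop
        (𝓝 (∫ y in K, ed (T.loc p) G F y)) := by
    intro T hT
    obtain ⟨B, hB0, hB⟩ := bnd hT hK hKR
    have he' : Tendsto (fun k => (1 + B) * (√(I k) + √(I' k))) atTop (𝓝 0) := by
      have := he.const_mul (1 + B)
      rwa [mul_zero] at this
    have hnc : ∀ {u : E n → Fib N}, ContDiffOn ℝ ∞ u V → ∀ j,
        ContinuousOn (nab (T.loc p) j u) (K) := fun hu j =>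
      ((CNear_nab_smooth hbr hT hu j).continuousOn).mono hKR
    have hnd : ∀ {u v : E n → Fib N} {e : ℝ}, ContDiffOn ℝ ∞ u V →
        ContDiffOn ℝ ∞ v V → ∀ y ∈ K,
        ‖u y - v y‖ + ∑ j, ‖pd j (fun y => u y - v y) y‖ ≤ e → ∀ j,
        ‖nab (T.loc p) j u y - nab (T.loc p) j v y‖ ≤ (1 + B) * e := by
      intro u v e hu hv y hy h j
      have e1 : nab (T.loc p) j u y - nab (T.loc p) j v y =
          pd j (fun y => u y - v y) y + (T.loc p).B j y (u y - v y) := by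
        rw [hpdsub hu hv j y (hKR hy), map_sub]
        unfold nab
        abel
      have e2 : ‖pd j (fun y => u y - v y) y‖ ≤ ∑ j, ‖pd j (fun y => u y - v y) y‖ :=
        Finset.single_le_sum (f := fun j => ‖pd j (fun y => u y - v y) y‖)
          (fun _ _ => norm_nonneg _) (Finset.mem_univ j)
      have e3 : ‖(T.loc p).B j y (u y - v y)‖ ≤ B * ‖u y - v y‖ :=
        ((T.loc p).B j y).le_of_opNorm_le (hB j y hy) _
      have e4 : 0 ≤ ∑ j, ‖pd j (fun y => u y - v y) y‖ :=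
        Finset.sum_nonneg fun _ _ => norm_nonneg _
      have e5 := norm_nonneg (u y - v y)
      rw [e1]
      refine (norm_add_le _ _).trans ?_
      have e6 : B * ‖u y - v y‖ ≤ B * e := by
        refine mul_le_mul_of_nonneg_left ?_ hB0
        linarith
      nlinarith
    simp only [ed_one]
    refine tend_int hK
      (a := fun j k y => (gg (T.loc p).g j k y : ℂ))
      (f := fun j => nab (T.loc p) j F) (g := fun j => nab (T.loc p) j G)
      (fk := fun k j => nab (T.loc p) j (lu (𝓡∂ n) p (uk k)))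
      (gk := fun k j => nab (T.loc p) j (lu (𝓡∂ n) p (wk k))) (fun j l => ?_)
      (fun j => hnc hF.1 j) (fun j => hnc hG.1 j) (fun k j => hnc (husol k).1 j)
      (fun k j => hnc (hwsol k).1 j) he' ?_ ?_
    · exact Complex.continuous_ofReal.comp_continuousOn
        (((hbr.gg_smooth hT.g_smooth hT.g_pos j l).continuousOn).mono hKR)
    · exact fun k j y hy => hnd (husol k).1 hF.1 y hy (hEu k y hy) j
    · exact fun k j y hy => hnd (hwsol k).1 hG.1 y hy (hEw k y hy) j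
  have hcont : ∀ T : One n N M, (T.loc p).Ok V → ∀ k,
      IntegrableOn (ed (T.loc p) (lu (𝓡∂ n) p (wk k)) (lu (𝓡∂ n) p (uk k)))
        (K) := by
    intro T hT k
    refine ContinuousOn.integrableOn_compact hK ?_
    have hnc : ∀ {u : E n → Fib N}, ContDiffOn ℝ ∞ u V → ∀ j,
        ContinuousOn (nab (T.loc p) j u) (K) := fun hu j =>
      ((CNear_nab_smooth hbr hT hu j).continuousOn).mono hKR
    refine continuousOn_finset_sum _ fun j _ => continuousOn_finset_sum _ fun l _ =>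
      ContinuousOn.mul ?_ ((hnc (hwsol k).1 j).inner (𝕜 := ℂ) (hnc (husol k).1 l))
    exact Complex.continuous_ofReal.comp_continuousOn
      (((hbr.gg_smooth hT.g_smooth hT.g_pos j l).continuousOn).mono hKR)
  have heq : ∀ k, ∫ y in K,
      ed (Q.loc p) (lu (𝓡∂ n) p (wk k)) (lu (𝓡∂ n) p (uk k)) y =
      ∫ y in K,
        ed (P.loc p) (lu (𝓡∂ n) p (wk k)) (lu (𝓡∂ n) p (uk k)) y := by
    intro k
    obtain ⟨f, hf, hu⟩ := huk k
    obtain ⟨h, hh, hw⟩ := hwk k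
    have h1 := en_diffK P Q hK (hKR.trans hbt) hA hg hu.smooth hw.smooth
      (en_eq hΓ hne hS (huk k) (hwk k))
    rw [integral_sub (hcont Q hokQ k) (hcont P hokP k)] at h1
    exact sub_eq_zero.1 h1
  have h1 := key Q hokQ
  simp only [heq] at h1
  exact tendsto_nhds_unique h1 (key P hokP)

/-- Equal data on `M` give the orthogonality relation of the two pairs on a domain of a chart. -/
theorem orU_K {P Q : One n N M} {Γ : Set M} (hΓ : RelBd n Γ)
    (hne : Γ.Nonempty) (hS : SameD P Q Γ) {p : M} {Ω : Set (Fin n → ℝ)} {V K K₁ : Set (E n)}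
    (hΩ : IsOpen Ω) (hΩb : Bornology.IsBounded Ω) (hVΩ : V = {x | tr (xc n p p) x ∈ Ω})
    (hbt : V ⊆ tg n p)
    (hpos : V ⊆ {y | 0 < y 0}) (hK : IsCompact K) (hKK : K ⊆ interior K₁)
    (hK₁ : IsCompact K₁) (hK₁V : K₁ ⊆ V)
    (hconn : IsPreconnected (Mi n M \ (xc n p).symm '' K₁))
    (hA : ∀ m, m ∉ (xc n p).symm '' K → ∀ X : TangentSpace (𝓡∂ n) m, P.A.form m X = Q.A.form m X)
    (hg : ∀ m, m ∉ (xc n p).symm '' K → ∀ v w : TangentSpace (𝓡∂ n) m,
      Q.g.inner m v w = P.g.inner m v w)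
    {g₁ g₂ : LR.MF n} (hg₁ : LR.SmM g₁) (hg₂ : LR.SmM g₂) (hp₁ : ∀ y, (g₁ y).PosDef)
    (hp₂ : ∀ y, (g₂ y).PosDef)
    (hgP : ∀ x ∈ V, g₁ (tr (xc n p p) x) = (P.loc p).g x)
    (hgQ : ∀ x ∈ V, g₂ (tr (xc n p p) x) = (Q.loc p).g x)
    {A₁ A₂ : LR.Cn n N} (hA₁ : LR.SmU A₁) (hA₂ : LR.SmU A₂)
    (hBP : ∀ x ∈ V, ∀ i, (P.loc p).B i x = S.toE (A₁ i (tr (xc n p p) x)))
    (hBQ : ∀ x ∈ V, ∀ i, (Q.loc p).B i x = S.toE (A₂ i (tr (xc n p p) x))) :
    LR.U.OrU Ω (LR.sg g₁) A₁ (LR.sg g₂) A₂ := by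
  set z : E n := xc n p p with hz
  have hV : IsOpen V := hVΩ ▸ hΩ.preimage (tr_cd z).continuous
  have hmV' : ∀ x, tr z x ∈ Ω ↔ x ∈ V := fun x => by rw [hVΩ]; rfl
  have hKR : K ⊆ V := hKK.trans (interior_subset.trans hK₁V)
  have hs₁ : LR.SmM (LR.sg g₁) := H833.smM_sg hg₁ hp₁
  have hs₂ : LR.SmM (LR.sg g₂) := H833.smM_sg hg₂ hp₂
  have hsy₁ := H833.symm_sg hp₁
  have hsy₂ := H833.symm_sg hp₂
  have hgg₁ : ∀ x ∈ V, ∀ j k,
      gg (P.loc p).g j k x = LR.sg g₁ (tr z x) j k := by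
    intro x hx j k
    unfold LR.sg gg
    rw [hgP x hx]
    rfl
  have hgg₂ : ∀ x ∈ V, ∀ j k,
      gg (Q.loc p).g j k x = LR.sg g₂ (tr z x) j k := by
    intro x hx j k
    unfold LR.sg gg
    rw [hgQ x hx]
    rfl
  intro u v hu hv hue hve
  have hF : Sol (P.loc p) V (sec z u) := by
    refine ⟨(sec_cd hu).contDiffOn, fun x hx => ?_⟩
    rw [sec_lop hV hpos hs₁ hA₁ hBP hgg₁ hu hx]
    unfold sec
    simp only
    rw [hue _ ((hmV' x).2 hx)]
    rfl
  have hG : Sol (Q.loc p) V (sec z v) := by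
    refine ⟨(sec_cd hv).contDiffOn, fun x hx => ?_⟩
    rw [sec_lop hV hpos hs₂ hA₂ hBQ hgg₂ hv hx]
    unfold sec
    simp only
    rw [hve _ ((hmV' x).2 hx)]
    rfl
  have h0 := orthGK hΓ hne hS hV hbt hpos hK hKK hK₁ hK₁V hconn hA hg hF hG
  have he₁ : ∀ x ∈ V, ed (P.loc p) (sec z v) (sec z u) x =
      fea (LR.sg g₁) A₁ u v (tr z x) := fun x hx =>
    sec_ed hsy₁ (hpos hx) (hBP x hx) (hgg₁ x hx) rfl hu hv
  have he₂ : ∀ x ∈ V, ed (Q.loc p) (sec z v) (sec z u) x =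
      fea (LR.sg g₂) A₂ u v (tr z x) := fun x hx =>
    sec_ed hsy₂ (hpos hx) (hBQ x hx) (hgg₂ x hx) rfl hu hv
  have hc₁ := fea_cont hs₁ hA₁ hu hv
  have hc₂ := fea_cont hs₂ hA₂ hu hv
  rw [setIntegral_congr_fun hK.measurableSet (fun y hy => he₁ y (hKR hy)),
    setIntegral_congr_fun hK.measurableSet (fun y hy => he₂ y (hKR hy))] at h0
  set f : (Fin n → ℝ) → ℂ := fun y => fea (LR.sg g₂) A₂ u v y - fea (LR.sg g₁) A₁ u v y with hf
  have hfc : Continuous f := hc₂.sub hc₁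
  have hcl : Continuous fun x : E n => tr z x := (tr_cd z).continuous
  have hfz : ∀ x ∈ V, x ∉ K → f (tr z x) = 0 := by
    intro x hx hxρ
    have h5 : (xc n p).symm x ∉ (xc n p).symm '' K := by
      rintro ⟨x', hx', he⟩
      have h6 : x' = x := (xc n p).symm.injOn (hbt (hKR hx')) (hbt hx) he
      exact hxρ (h6 ▸ hx')
    have h6 : g₂ (tr z x) = g₁ (tr z x) := by
      rw [hgQ x hx, hgP x hx]
      ext i j
      exact hg _ h5 _ _
    have h7 : LR.sg g₂ (tr z x) = LR.sg g₁ (tr z x) := by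
      unfold LR.sg
      rw [h6]
    have h8 : ∀ i, A₂ i (tr z x) = A₁ i (tr z x) := by
      intro i
      apply S.toE_inj
      rw [← hBP x hx i, ← hBQ x hx i]
      exact (hA _ h5 _).symm
    rw [hf]
    simp only
    unfold fea LR.cd
    simp only [h7, h8, sub_self]
  -- change of variables
  have h1 : ∫ x in V, f (tr z x) = 0 := by
    have e1 : ∫ x in K, f (tr z x) = 0 := by
      rw [hf]
      simp only
      rw [integral_sub]
      · rw [h0, sub_self]
      · exact ((hc₂.comp hcl).continuousOn).integrableOn_compact hK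
      · exact ((hc₁.comp hcl).continuousOn).integrableOn_compact hK
    rw [← e1]
    refine setIntegral_eq_of_subset_of_forall_diff_eq_zero hV.measurableSet hKR ?_
    intro x hx
    exact hfz x hx.1 hx.2
  have h2 : ∫ x, Ω.indicator f (tr z x) = ∫ x in V, f (tr z x) := by
    rw [← integral_indicator hV.measurableSet]
    refine integral_congr_ae (Eventually.of_forall fun x => ?_)
    by_cases hx : x ∈ V
    · simp only [indicator_of_mem hx, indicator_of_mem ((hmV' x).2 hx)]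
    · have hx' : tr z x ∉ Ω := fun h => hx ((hmV' x).1 h)
      simp only [indicator_of_notMem hx, indicator_of_notMem hx']
  rw [h1, int_tr z] at h2
  rw [integral_indicator hΩ.measurableSet] at h2
  have hi : ∀ {h : (Fin n → ℝ) → ℂ}, Continuous h → IntegrableOn h Ω := fun hh =>
    (hh.continuousOn.integrableOn_compact (Metric.isCompact_of_isClosed_isBounded
      isClosed_closure hΩb.closure)).mono_set subset_closure
  rw [hf, integral_sub (hi hc₂) (hi hc₁)] at h2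
  exact (sub_eq_zero.1 h2).symm

end Vale.Agent.P088.R2.H455.J

end
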