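import Vale.Agent.P088.R2.H455.J.K1
import Vale.Agent.P088.H207.N5
import Vale.Agent.P088.H207.L5

/-!
# P088: from a gauge on a domain of a chart to a gauge on the manifold
-/

set_option linter.all false

open Bundle Manifold MeasureTheory Set Filter Topology
open scoped ContDiff Matrix ENNReal

noncomputable section

namespace Vale.Agent.P088.R2.H455.J

open Vale.Agent.P088 Vale.Agent.P088.B Vale.Agent.P088.EYM Vale.Agent.P088.EYM.O
open Vale.Agent.P088.H207 (Dm cV Gm Am)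
open Vale.Agent.P088.H207.R (vO vO_sub Rg cbO cb_src lc_w lc_K tch_on mvD mv_off mv_off_D mv_smooth
  mv_jac)
open Vale.Agent.P088.H207.L (gU gU_src gU_nsrc ue ue_cd ue_fd)
open Vale.Agent.P088.H207.J (tr tri tr_tri tri_tr tr_cd tri_cd tr_fd int_tr)

universe u

section

variable {n N : ℕ} [NeZero n] {M : Type u} [TopologicalSpace M]
  [ChartedSpace (EuclideanHalfSpace n) M] [IsManifold (𝓡∂ n) ∞ M]

theorem gU_off {p : M} {Ω : Set (Fin n → ℝ)} (hR : Rg p Ω)
    {U : (Fin n → ℝ) → Matrix (Fin N) (Fin N) ℂ} (h1 : ∀ y ∉ Ω, U y = 1) {m : M}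
    (hm : m ∉ (xc n p).symm '' vO (xc n p p) Ω) : gU p U m = 1 := by
  by_cases hs : m ∈ (xc n p).source
  · have h2 : xc n p m ∉ vO (xc n p p) Ω := fun h =>
      hm ⟨xc n p m, h, (xc n p).left_inv hs⟩
    rw [gU_src hs]
    unfold ue
    rw [h1 _ (fun h => h2 h), S.toE_one]
  · exact gU_nsrc hs

variable [T2Space M]

theorem gU_ev {p : M} {Ω : Set (Fin n → ℝ)} (hR : Rg p Ω)
    {U : (Fin n → ℝ) → Matrix (Fin N) (Fin N) ℂ}
    (h1 : ∀ y ∉ Ω, U y = 1) {m : M} (hm : m ∉ cbO p Ω) :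
    (gU p U : M → EndF N) =ᶠ[𝓝 m] fun _ => 1 := by
  have hcl : IsClosed (cbO p Ω) := hR.cbcompact.isClosed
  filter_upwards [hcl.isOpen_compl.mem_nhds hm] with x hx
  exact gU_off hR h1 fun h => hx (image_mono vO_sub h)

theorem gU_smooth {p : M} {Ω : Set (Fin n → ℝ)} (hR : Rg p Ω)
    {U : (Fin n → ℝ) → Matrix (Fin N) (Fin N) ℂ} (hU : LR.H158.SmC U)
    (h1 : ∀ y ∉ Ω, U y = 1) : ContMDiff (𝓡∂ n) 𝓘(ℝ, EndF N) ∞ (gU p U) := by
  intro m
  by_cases hm : m ∈ (xc n p).source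
  · have h2 : ContMDiffOn (𝓡∂ n) 𝓘(ℝ, E n) ∞ (xc n p) (xc n p).source := by
      have := contMDiffOn_extChartAt (I := 𝓡∂ n) (x := p) (n := ∞) (M := M)
      rwa [← extChartAt_source (𝓡∂ n)] at this
    have h3 : ContMDiffOn (𝓡∂ n) 𝓘(ℝ, EndF N) ∞ (gU p U) (xc n p).source :=
      ((ue_cd hU).contMDiff.comp_contMDiffOn h2).congr fun x hx => gU_src hx
    exact h3.contMDiffAt ((isOpen_extChartAt_source p).mem_nhds hm)
  · exact contMDiffAt_const.congr_of_eventuallyEq
      (gU_ev hR h1 fun h => hm (cb_src hR h).1)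

theorem gU_uni {p : M} {Ω : Set (Fin n → ℝ)} (hR : Rg p Ω)
    {U : (Fin n → ℝ) → Matrix (Fin N) (Fin N) ℂ} (hU : LR.H158.SmC U)
    (h1 : ∀ y ∉ Ω, U y = 1) (h2 : ∀ y, (U y)ᴴ * U y = 1) :
    IsSmoothUnitary (𝓡∂ n) (gU p U : M → EndF N) := by
  refine ⟨gU_smooth hR hU h1, fun m => ?_⟩
  by_cases hs : m ∈ (xc n p).source
  · rw [gU_src hs]
    unfold ue
    set y := tr (xc n p p) (xc n p m)
    have h3 : (U y)ᴴ * U y = 1 := h2 y
    have h4 : U y * (U y)ᴴ = 1 := mul_eq_one_comm.1 h3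
    refine Unitary.mem_iff.2 ⟨?_, ?_⟩
    · show ContinuousLinearMap.adjoint (S.toE (U y)) * S.toE (U y) = 1
      rw [← S.toE_star, ← S.toE_mul, h3, S.toE_one]
    · show S.toE (U y) * ContinuousLinearMap.adjoint (S.toE (U y)) = 1
      rw [← S.toE_star, ← S.toE_mul, h4, S.toE_one]
  · rw [gU_nsrc hs]
    exact one_mem _

/-- The derivative in the chart. -/
theorem gU_d {p : M} {Ω : Set (Fin n → ℝ)} (hR : Rg p Ω)
    {U : (Fin n → ℝ) → Matrix (Fin N) (Fin N) ℂ} (hU : LR.H158.SmC U)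
    (h1 : ∀ y ∉ Ω, U y = 1) {m : M} (hm : m ∈ cbO p Ω) (j : Fin n) :
    dmap (𝓡∂ n) (gU p U : M → EndF N) m (cV p m j) =
      S.toE (LR.pdm j U (tr (xc n p p) (xc n p m))) := by
  obtain ⟨hs, hcb⟩ := cb_src hR hm
  obtain ⟨htg, hpos⟩ := hR.sub _ hcb
  obtain ⟨O, hO, hOt⟩ := cLoc_relOpen (n := n) p
  have hpos' : 0 < (xc n p m) 0 := hpos
  have h2 : IsOpen {y : E n | 0 < y 0} := isOpen_lt continuous_const (by fun_prop)
  have hev : (lu (𝓡∂ n) p (gU p U : M → EndF N)) =ᶠ[𝓝 (xc n p m)] ue (xc n p p) U := by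
    have h3 : xc n p m ∈ O := by
      have : xc n p m ∈ tg n p := htg
      rw [hOt] at this
      exact this.1
    filter_upwards [hO.mem_nhds h3, h2.mem_nhds hpos'] with y hy1 hy2
    have h4 : y ∈ tg n p := by
      rw [hOt]
      exact ⟨hy1, le_of_lt (show 0 < y 0 from hy2)⟩
    show gU p U ((xc n p).symm y) = _
    rw [gU_src ((xc n p).map_target h4), (xc n p).right_inv h4]
  have h5 : dmap (𝓡∂ n) (gU p U : M → EndF N) m (cV p m j) =
      fderivWithin ℝ (lu (𝓡∂ n) p (gU p U : M → EndF N)) (range (𝓡∂ n)) (xc n p m) (ev j) :=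
    dmap_coordVec (𝓡∂ n) hs ((gU_smooth hR hU h1).mdifferentiableAt (by simp)) j
  have h6 : range (𝓡∂ n) ∈ 𝓝 (xc n p m) := by
    rw [range_modelWithCornersEuclideanHalfSpace]
    exact mem_of_superset (h2.mem_nhds hpos') fun y hy => le_of_lt (show 0 < y 0 from hy)
  rw [h5, fderivWithin_of_mem_nhds h6, hev.fderiv_eq, ue_fd hU]

theorem gU_d_off {p : M} {Ω : Set (Fin n → ℝ)} (hR : Rg p Ω)
    {U : (Fin n → ℝ) → Matrix (Fin N) (Fin N) ℂ} (hU : LR.H158.SmC U)
    (h1 : ∀ y ∉ Ω, U y = 1) {m : M}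
    (hm : m ∉ (xc n p).symm '' vO (xc n p p) Ω) (v : E n) :
    (dmap (𝓡∂ n) (gU p U : M → EndF N) m v : EndF N) = 0 := by
  by_cases hcb : m ∈ cbO p Ω
  · obtain ⟨hs, hcb'⟩ := cb_src hR hcb
    have hbO : tr (xc n p p) (xc n p m) ∉ Ω := fun h =>
      hm ⟨xc n p m, h, (xc n p).left_inv hs⟩
    have h3 : ∀ j, dmap (𝓡∂ n) (gU p U : M → EndF N) m (cV p m j) = 0 := by
      intro j
      rw [gU_d hR hU h1 hcb j]
      have h4 : LR.pdm j U (tr (xc n p p) (xc n p m)) = 0 := by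
        ext a b
        have h5 : fderiv ℝ (fun y => U y a b - (1 : Matrix (Fin N) (Fin N) ℂ) a b)
            (tr (xc n p p) (xc n p m)) = 0 :=
          LR.H158.fderiv_zero_off hR.reg ((hU a b).sub contDiff_const)
            (fun y hy => by rw [h1 y hy, sub_self]) hbO
        rw [fderiv_sub_const] at h5
        show fderiv ℝ (fun y => U y a b) (tr (xc n p p) (xc n p m)) (Pi.single j 1) = 0
        rw [h5]
        rfl
      rw [h4]
      exact map_zero (Matrix.toEuclideanCLM (n := Fin N) (𝕜 := ℂ))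
    obtain ⟨-, h2⟩ := EYM.cChart n M univ (id : M → M) isOpen_univ
      contMDiff_id.contMDiffOn p p m (mem_univ _) hs hs
    obtain ⟨a, ha⟩ := h2 v
    have ha' : v = ∑ j, a j • cV p m j := ha
    have h6 : ∀ T : E n →L[ℝ] EndF N, (∀ j, T (cV p m j) = 0) → T v = 0 := by
      intro T hT
      rw [ha', map_sum]
      refine Finset.sum_eq_zero fun j _ => ?_
      rw [map_smul, hT j, smul_zero]
    exact h6 _ h3
  · have h1 := gU_ev hR h1 hcb
    have h2 : mfderiv (𝓡∂ n) 𝓘(ℝ, EndF N) (gU p U : M → EndF N) m =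
        mfderiv (𝓡∂ n) 𝓘(ℝ, EndF N) (fun _ : M => (1 : EndF N)) m := h1.mfderiv_eq
    unfold dmap
    rw [h2, mfderiv_const]
    rfl

end

section

variable {n N : ℕ} [NeZero n] {M : Type u} [TopologicalSpace M]
  [ChartedSpace (EuclideanHalfSpace n) M] [IsManifold (𝓡∂ n) ∞ M] [T2Space M] [MeasurableSpace M]

/-- The pull back of the connection, with a gauge. -/
theorem mv_con2 {P Q : One n N M} {p : M} {Ω : Set (Fin n → ℝ)} (hR : Rg p Ω)
    {w K : (Fin n → ℝ) → Fin n → ℝ} (D : LR.Dif Ω w K)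
    {U : (Fin n → ℝ) → Matrix (Fin N) (Fin N) ℂ} (hU : LR.H158.SmC U)
    (h1 : ∀ y ∉ Ω, U y = 1) {A₁ A₂ : LR.Cn n N}
    (hBP : ∀ x ∈ vO (xc n p p) Ω, ∀ i,
      (P.loc p).B i x = S.toE (A₁ i (tr (xc n p p) x)))
    (hBQ : ∀ x ∈ vO (xc n p p) Ω, ∀ i,
      (Q.loc p).B i x = S.toE (A₂ i (tr (xc n p p) x)))
    (hA : ∀ m, m ∉ (xc n p).symm '' vO (xc n p p) Ω → Am Q m = Am P m)
    (hg : ∀ i, ∀ x ∈ Ω, A₂ i x = (U x)ᴴ * LR.pb w A₁ i x * U x + (U x)ᴴ * LR.pdm i U x)
    (m : M) (v : E n) :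
    Am Q m v = ContinuousLinearMap.adjoint (gU p U m) *
        (Am P (H207.J.mv p (fun y => y + w y) m) (Dm (H207.J.mv p fun y => y + w y) m v)) *
          gU p U m +
      ContinuousLinearMap.adjoint (gU p U m) * (dmap (𝓡∂ n) (gU p U : M → EndF N) m v : EndF N) := by
  by_cases hm : m ∈ (xc n p).symm '' vO (xc n p p) Ω
  · obtain ⟨y, hy, rfl⟩ := hm
    have hycb := vO_sub hy
    have hyt : y ∈ tg n p := (hR.sub _ hycb).1
    have hs : (xc n p).symm y ∈ (xc n p).source := (xc n p).map_target hyt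
    have hmv : H207.J.mv p (fun y => y + w y) ((xc n p).symm y) =
        (xc n p).symm (H207.J.tch (xc n p p) (fun y => y + w y) y) := by
      rw [H207.J.mv_src hs, (xc n p).right_inv hyt]
    have htc := tch_on (lc_w D) hy
    have hs' : H207.J.mv p (fun y => y + w y) ((xc n p).symm y) ∈ (xc n p).source := by
      rw [hmv]
      exact (xc n p).map_target (hR.sub _ (vO_sub htc)).1
    obtain ⟨h3, h2⟩ := EYM.cChart n M univ (H207.J.mv p fun y => y + w y) isOpen_univ
      (mv_smooth hR (lc_w D)).contMDiffOn p p ((xc n p).symm y) (mem_univ _) hs hs'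
    have hJ := mv_jac hR D (m := (xc n p).symm y) (mem_image_of_mem _ hycb)
    rw [(xc n p).right_inv hyt] at hJ
    rw [(xc n p).right_inv hyt, hJ] at h3
    have hd := fun j => gU_d hR hU h1 (m := (xc n p).symm y) (mem_image_of_mem _ hycb) j
    rw [(xc n p).right_inv hyt] at hd
    have hV : gU p U ((xc n p).symm y) = S.toE (U (tr (xc n p p) y)) := by
      rw [gU_src hs, (xc n p).right_inv hyt]
      rfl
    obtain ⟨a, ha⟩ := h2 v
    set m := (xc n p).symm y with hmdef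
    set Jm := LR.jm w (tr (xc n p p) y) with hJdef
    set y' := tr (xc n p p) y with hy'
    have hy'b : y' ∈ Ω := hy
    -- on the coordinate vectors
    have key : ∀ j : Fin n, Am Q m (cV p m j) = ContinuousLinearMap.adjoint (gU p U m) *
        (Am P (H207.J.mv p (fun y => y + w y) m)
          (Dm (H207.J.mv p fun y => y + w y) m (cV p m j))) *
          gU p U m + ContinuousLinearMap.adjoint (gU p U m) *
            (dmap (𝓡∂ n) (gU p U : M → EndF N) m (cV p m j) : EndF N) := by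
      intro j
      have e1 : Am Q m (cV p m j) = S.toE (A₂ j y') := hBQ y hy j
      have e2 : Dm (H207.J.mv p fun y => y + w y) m (cV p m j) =
          ∑ k, Jm k j • cV p (H207.J.mv p (fun y => y + w y) m) k := h3 j
      have e3 : ∀ k, Am P (H207.J.mv p (fun y => y + w y) m)
          (cV p (H207.J.mv p (fun y => y + w y) m) k) = S.toE (A₁ k (y' + w y')) := by
        intro k
        have e4 := hBP _ htc k
        have e5 : tr (xc n p p) (H207.J.tch (xc n p p) (fun y => y + w y) y) = y' + w y' := by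
          unfold H207.J.tch
          rw [tr_tri]
        rw [e5] at e4
        rw [hmv]
        exact e4
      have e6 : Am P (H207.J.mv p (fun y => y + w y) m)
          (Dm (H207.J.mv p fun y => y + w y) m (cV p m j)) = S.toE (LR.pb w A₁ j y') := by
        rw [e2, map_sum]
        simp only [map_smul, e3]
        rw [S.toE_rsum (fun k => A₁ k (y' + w y')) (fun k => Jm k j)]
        congr 1
      rw [e1, e6, hd j, hV, hg j y' hy'b, ← S.toE_star, S.toE_add, S.toE_mul, S.toE_mul, S.toE_mul]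
    have ha' : v = ∑ j, a j • cV p m j := ha
    have e7 : Am Q m v = ∑ j, a j • Am Q m (cV p m j) := by
      rw [ha', map_sum]
      exact Finset.sum_congr rfl fun j _ => map_smul _ _ _
    have e8 : Am P (H207.J.mv p (fun y => y + w y) m) (Dm (H207.J.mv p fun y => y + w y) m v) =
        ∑ j, a j • Am P (H207.J.mv p (fun y => y + w y) m)
          (Dm (H207.J.mv p fun y => y + w y) m (cV p m j)) := by
      rw [ha', map_sum, map_sum]
      exact Finset.sum_congr rfl fun j _ => by rw [map_smul, map_smul]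
    have e9 : (dmap (𝓡∂ n) (gU p U : M → EndF N) m v : EndF N) =
        ∑ j, a j • (dmap (𝓡∂ n) (gU p U : M → EndF N) m (cV p m j) : EndF N) := by
      have e10 : ∀ T : E n →L[ℝ] EndF N, T v = ∑ j, a j • T (cV p m j) := by
        intro T
        rw [ha', map_sum]
        exact Finset.sum_congr rfl fun j _ => map_smul _ _ _
      exact e10 _
    rw [e7, e8, e9, Finset.mul_sum, Finset.sum_mul, Finset.mul_sum, ← Finset.sum_add_distrib]
    refine Finset.sum_congr rfl fun j _ => ?_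
    rw [key j, smul_add, mul_smul_comm, smul_mul_assoc, mul_smul_comm]
  · rw [gU_off hR h1 hm, gU_d_off hR hU h1 hm, mv_off_D hR D hm, mv_off hR (lc_w D) hm, hA m hm]
    have e1 : ContinuousLinearMap.adjoint (1 : EndF N) = 1 := _root_.star_one (EndF N)
    rw [e1, one_mul, mul_one, mul_zero, add_zero]

end

end Vale.Agent.P088.R2.H455.J

end
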