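import Vale.Agent.P088.R2.H455.J.K2
import Vale.Agent.P088.H207.N6
import Vale.Agent.P088.H207.L6

/-!
# P088: joint uniqueness on a domain of a chart from rigidity on `ℝ^n`
-/

set_option linter.all false

open Bundle Manifold MeasureTheory Set Filter Topology
open scoped ContDiff Matrix ENNReal

noncomputable section

namespace Vale.Agent.P088.R2.H455.J

open Vale.Agent.P088 Vale.Agent.P088.B Vale.Agent.P088.EYM
open Vale.Agent.P088.H207 (gl ch_at src_at gch_at IsDom inM MatchO)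
open Vale.Agent.P088.H207.R (vO vO_sub vO_compact Rg cbO cb_src lc_w lc_K tch_on mvD mv_off mv_met
  glueO glueO_in glueO_out glueO_sm tr_at inM_at rg_of)
open Vale.Agent.P088.H207.L (gU gU_src gU_nsrc ue ue_cd ue_fd ach_at related_comp2)
open Vale.Agent.P088.H207.J (tr tri tr_tri tri_tr tr_cd tri_cd tr_fd int_tr)

universe u

section

variable {n : ℕ} {F : Type*}

/-- `f` on `Ω`, and `g` off it. -/
def glA (Ω : Set (Fin n → ℝ)) (f g : (Fin n → ℝ) → F) : (Fin n → ℝ) → F := fun y =>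
  haveI := Classical.dec (y ∈ Ω)
  if y ∈ Ω then f y else g y

variable {Ω K : Set (Fin n → ℝ)} {f g : (Fin n → ℝ) → F}

theorem glA_in {y : Fin n → ℝ} (hy : y ∈ Ω) : glA Ω f g y = f y := if_pos hy

theorem glA_out {y : Fin n → ℝ} (hy : y ∉ Ω) : glA Ω f g y = g y := if_neg hy

variable [NormedAddCommGroup F] [NormedSpace ℝ F]

theorem glA_sm (hΩ : IsOpen Ω) (hK : IsClosed K) (hKΩ : K ⊆ Ω)
    (hf : ContDiffOn ℝ ∞ f Ω) (hg : ContDiff ℝ ∞ g) (h1 : ∀ y ∈ Ω, y ∉ K → f y = g y) :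
    ContDiff ℝ ∞ (glA Ω f g) := by
  rw [contDiff_iff_contDiffAt]
  intro y
  by_cases hy : y ∈ Ω
  · have e1 : glA Ω f g =ᶠ[𝓝 y] f := by
      filter_upwards [hΩ.mem_nhds hy] with x hx
      rw [glA_in hx]
    exact (hf.contDiffAt (hΩ.mem_nhds hy)).congr_of_eventuallyEq e1
  · have e1 : glA Ω f g =ᶠ[𝓝 y] g := by
      filter_upwards [hK.isOpen_compl.mem_nhds (fun h => hy (hKΩ h))] with x hx
      by_cases hx' : x ∈ Ω
      · rw [glA_in hx', h1 x hx' hx]
      · rw [glA_out hx']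
    exact hg.contDiffAt.congr_of_eventuallyEq e1

end

/-- In the chart at `p`, on `W`: `g = h(· - y(p))` and `A_i = α_i(· - y(p))`. -/
def MatchP {n N : ℕ} [NeZero n] {M : Type u} {Z : At n M} (h : LR.MF n) (α : LR.Cn n N)
    (P : Pair Z N) (p : M) (W : Set (Fin n → ℝ)) : Prop :=
  ∀ x ∈ inM Z p W, gch Z P.g p (Z.ch p x) = h (Z.ch p x - Z.ch p p) ∧
    ∀ i, ach Z P.A p i (Z.ch p x) = α i (Z.ch p x - Z.ch p p)

/-- Rigidity of the pair `(h, α)` on `Ω`, among the pairs `(g, β)` with `X g β`. -/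
def RigP (n N : ℕ) (Ω : Set (Fin n → ℝ)) (h : LR.MF n) (α : LR.Cn n N)
    (X : LR.MF n → LR.Cn n N → Prop) : Prop :=
  ∀ (g : LR.MF n) (β : LR.Cn n N), LR.SmM g → (∀ y, (g y).PosDef) → (∀ y ∉ Ω, g y = h y) →
    LR.SmU β → (∀ i, ∀ y ∉ Ω, β i y = α i y) → X g β →
    LR.U.OrU Ω (LR.sg h) α (LR.sg g) β →
    ∃ (w K : (Fin n → ℝ) → Fin n → ℝ) (U : LR.U.MC n N), LR.Dif Ω w K ∧
      (∀ y, g y = (LR.jm w y)ᵀ * h (y + w y) * LR.jm w y) ∧ LR.H158.SmC U ∧
      (∀ x, (U x)ᴴ * U x = 1) ∧ (∀ x ∉ Ω, U x = 1) ∧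
      ∀ i, ∀ x ∈ Ω, β i x = (U x)ᴴ * LR.pb w α i x * U x + (U x)ᴴ * LR.pdm i U x

/-- Joint uniqueness near a rigid pair on a domain of a chart. -/
theorem bg_domU {n : ℕ} [NeZero n] (hn : 3 ≤ n) {N : ℕ} (hN : 1 ≤ N) {Ω : Set (Fin n → ℝ)}
    {h : LR.MF n} (hh : LR.SmM h) (hhp : ∀ y, (h y).PosDef) {α : LR.Cn n N} (hα : LR.SmU α)
    {X : LR.MF n → LR.Cn n N → Prop} (hrig : RigP n N Ω h α X)
    {M : Type u} [TopologicalSpace M]
    [ChartedSpace (EuclideanHalfSpace n) M] [IsManifold (𝓡∂ n) ∞ M] [T2Space M] [CompactSpace M]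
    [ConnectedSpace M] (Z : At n M) (hZ : Z = at_ n M) (Γ O₀ : Set M) (hO₀ : IsOpen O₀)
    (hΓ : Γ = O₀ ∩ bd Z) (hne : Γ.Nonempty) (P P' Q : Pair Z N)
    (hd : Vale.Agent.P088.B.SameData Γ P Q)
    (hR : Related Γ P P') (p : M) (hp : IsDom Z p Ω)
    (hmat : MatchP h α P' p Ω) (K K₁ : Set (Fin n → ℝ)) (hK : IsCompact K)
    (hKK : K ⊆ interior K₁) (hK₁ : IsCompact K₁) (hK₁Ω : K₁ ⊆ Ω)
    (hc : IsPreconnected ((bd Z)ᶜ \ inM Z p K)) (hc₁ : IsPreconnected ((bd Z)ᶜ \ inM Z p K₁))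
    (hpw : B8.PwLe (inM Z p K)ᶜ Γ P' Q)
    (hAoff : ∀ x ∉ inM Z p K, Q.A x = P'.A x)
    (hX : ∀ (g : LR.MF n) (β : LR.Cn n N), LR.SmM g → (∀ y, (g y).PosDef) → LR.SmU β →
      (∀ y ∈ Ω, g y = gch Z Q.g p (y + Z.ch p p)) → (∀ y ∉ K, g y = h y) →
      (∀ i, ∀ y ∈ Ω, β i y = ach Z Q.A p i (y + Z.ch p p)) → (∀ i, ∀ y ∉ K, β i y = α i y) →
      X g β) :
    Related Γ P Q := by
  have hd' : Vale.Agent.P088.B.SameData Γ P' Q := Vale.Agent.P088.B.same_related Z hZ hO₀ hΓ hne hR hd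
  subst hZ
  letI := borel M
  haveI : BorelSpace M := ⟨rfl⟩
  obtain ⟨hrel, hok, -, -⟩ := TM.fLoc n N M
  obtain ⟨hIo, hIp, hId⟩ := TM.fConn n M
  have hRg : Rg p Ω := rg_of hp
  have hb : bd (at_ n M) = (𝓡∂ n).boundary M := bd_at
  set z : E n := xc n p p with hz
  have hKΩ : K ⊆ Ω := hKK.trans (interior_subset.trans hK₁Ω)
  have hcl : vO z (closure Ω) ⊆ tg n p := fun x hx => (hRg.sub x hx).1
  have hvm : ∀ {S T : Set (Fin n → ℝ)}, S ⊆ T → vO z S ⊆ vO z T := fun hST x hx => hST hx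
  have hbt : vO z Ω ⊆ tg n p := vO_sub.trans hcl
  have hpos : vO z Ω ⊆ {y | 0 < y 0} := fun x hx => (hRg.sub x (vO_sub hx)).2
  have hKM : inM (at_ n M) p K = (xc n p).symm '' vO z K := inM_at ((hvm hKΩ).trans hbt)
  have hKM₁ : inM (at_ n M) p K₁ = (xc n p).symm '' vO z K₁ := inM_at ((hvm hK₁Ω).trans hbt)
  have hV : inM (at_ n M) p Ω = (xc n p).symm '' vO z Ω := inM_at hbt
  have hvKc : IsCompact (vO z K) := vO_compact hK
  have hvK₁c : IsCompact (vO z K₁) := vO_compact hK₁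
  have hvO : IsOpen (vO z Ω) := hRg.op.preimage (tr_cd z).continuous
  have hvKK : vO z K ⊆ interior (vO z K₁) :=
    (hvm hKK).trans (interior_maximal (hvm interior_subset)
      (isOpen_interior.preimage (tr_cd z).continuous))
  have hVH : vO z Ω ⊆ Hs n := fun y hy => le_of_lt (show (0 : ℝ) < y 0 from hpos hy)
  have hmi : Mi n M = (bd (at_ n M))ᶜ := by
    rw [hb, ← ModelWithCorners.compl_interior, compl_compl]
  have hcpK : IsCompact ((xc n p).symm '' vO z K) :=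
    hvKc.image_of_continuousOn ((continuousOn_extChartAt_symm p).mono ((hvm hKΩ).trans hbt))
  have hKmi : (xc n p).symm '' vO z K ⊆ Mi n M := by
    rintro _ ⟨y, hy, rfl⟩
    exact cRungeB_mi_of_pos TM.fLoc p (hbt (hvm hKΩ hy)) (hpos (hvm hKΩ hy))
  have hmem : ∀ y ∈ vO z Ω, (xc n p).symm y ∈ inM (at_ n M) p Ω := fun y hy => by
    rw [hV]
    exact mem_image_of_mem _ hy
  have hchy : ∀ y ∈ vO z Ω, (at_ n M).ch p ((xc n p).symm y) = WithLp.ofLp y :=
    fun y hy => by rw [ch_at, (xc n p).right_inv (hbt hy)]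
  -- the hole
  have hole : B8.Hole (fun _ => 1) (inM (at_ n M) p K) (inM (at_ n M) p Ω) Γ P' Q := by
    refine ⟨?_, ?_, ?_, ?_, ?_, hpw, ⟨fun a b => contMDiffOn_const, fun x => by simp,
      fun x _ => rfl, fun x hx j => ?_⟩⟩
    · rw [hKM]
      exact hcpK.isClosed
    · rw [hKM, hb, eq_empty_iff_forall_notMem]
      rintro x ⟨h1, h2⟩
      have h3 := hKmi h1
      rw [← ModelWithCorners.compl_interior] at h2
      exact h2 h3
    · rw [hKM] at hc ⊢
      rw [← hmi] at hc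
      refine hc.subset_closure (fun x hx => hx.2) fun x hx => ?_
      rw [mem_closure_iff]
      intro W hW hxW
      obtain ⟨q, ⟨hq1, hq2⟩, hqI⟩ := mem_closure_iff.1 (hId x) (W ∩ ((xc n p).symm '' vO z K)ᶜ)
        (hW.inter hcpK.isClosed.isOpen_compl) ⟨hxW, hx⟩
      exact ⟨q, hq1, hqI, hq2⟩
    · rw [hV]
      exact cRungeB_open TM.fLoc p ⟨vO z Ω, hvO, (inter_eq_left.2 hVH).symm⟩ hbt
    · rw [hKM, hV]
      exact image_mono (hvm hKΩ)
    · have e1 : dM (fun y : Vale.Agent.P088.B.V n => (1 : Matrix (Fin N) (Fin N) ℂ))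
          ((at_ n M).ch x x) j = 0 := by
        ext a b
        unfold dM dj
        simp
      rw [e1, hAoff x hx]
      simp
  obtain ⟨h1, -, -⟩ := B8.hole' hn hN (at_ n M) rfl Γ O₀ hO₀ hΓ hne P' Q hd' _ _ _ hole
  have hS : EYM.SameD (B2.one P') (B2.one Q) Γ := Vale.Agent.P088.B.sameD_one hd'
  have hRB : EYM.RelBd n Γ := ⟨O₀, hO₀, by rw [hΓ, hb]⟩
  have hchp : (at_ n M).ch p p = WithLp.ofLp z := ch_at p p
  have hokQ : ((B2.one Q).loc p).Ok (vO z Ω) := CHarm_ok_mono (hok _ p) hbt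
  -- centred coordinates
  set y₀ : Fin n → ℝ := WithLp.ofLp z with hy₀
  have htri : ∀ y : Fin n → ℝ, WithLp.ofLp (tri z y) = y + y₀ := by
    intro y
    funext j
    show z j + y j = y j + z j
    ring
  have htO : ∀ y ∈ Ω, tri z y ∈ vO z Ω := fun y hy => by
    show tr z (tri z y) ∈ Ω
    rwa [tr_tri]
  have hnotin : ∀ y ∈ Ω, y ∉ K → (xc n p).symm (tri z y) ∉ (xc n p).symm '' vO z K := by
    intro y hy hy'
    rintro ⟨x', hx', he⟩
    have h6 : x' = tri z y := (xc n p).symm.injOn (hbt (hvm hKΩ hx')) (hbt (htO y hy)) he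
    rw [h6] at hx'
    have h7 : tr z (tri z y) ∈ K := hx'
    rw [tr_tri] at h7
    exact hy' h7
  -- the metrics
  have hgP : ∀ y ∈ vO z Ω, gl P' p y = h (tr z y) := by
    intro y hy
    have e1 := (hmat _ (hmem y hy)).1
    rw [hchy y hy, gch_at P' p (hbt hy), hchp] at e1
    exact e1
  set f : LR.MF n := fun y => gch (at_ n M) Q.g p (y + y₀) with hf
  have hfgl : ∀ y ∈ Ω, f y = gl Q p (tri z y) := by
    intro y hy
    have e1 := gch_at Q p (hbt (htO y hy))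
    rw [htri] at e1
    exact e1
  have hf1 : ∀ y ∈ Ω, y ∉ K → f y = h y := by
    intro y hy hy'
    have hx := htO y hy
    have h5 := hnotin y hy hy'
    have e1 : gl Q p (tri z y) = gl P' p (tri z y) := by
      ext i j
      show S.bil (Q.g _) _ _ = S.bil (P'.g _) _ _
      rw [h1 _ (by rw [hKM]; exact h5)]
    rw [hfgl y hy, e1, hgP _ hx, tr_tri]
  have hfs : ∀ i j, ContDiffOn ℝ ∞ (fun y => f y i j) Ω := by
    intro i j
    have e2 : ContDiffOn ℝ ∞ (fun x : E n => gl Q p x i j) (vO z Ω) :=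
      hokQ.g_smooth i j
    refine (e2.comp (tri_cd z).contDiffOn fun y hy => htO y hy).congr
      fun y hy => ?_
    rw [hfgl y hy]
    rfl
  set g : LR.MF n := glueO Ω f h with hg
  have hgs : LR.SmM g := glueO_sm hRg.op hK.isClosed hKΩ hfs hh hf1
  have hgp : ∀ y, (g y).PosDef := by
    intro y
    by_cases hy : y ∈ Ω
    · rw [hg, glueO_in hy, hfgl y hy]
      exact hokQ.g_pos _ (htO y hy)
    · rw [hg, glueO_out hy]
      exact hhp y
  have hgQ : ∀ x ∈ vO z Ω, g (tr z x) = gl Q p x := by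
    intro x hx
    rw [hg, glueO_in (show tr z x ∈ Ω from hx), hfgl _ hx, tri_tr]
  have hgPc : ∀ x ∈ vO z Ω, h (tr z x) = gl P' p x := fun x hx => (hgP x hx).symm
  -- the connections
  have hBP : ∀ x ∈ vO z Ω, ∀ i, ((B2.one P').loc p).B i x = S.toE (α i (tr z x)) := by
    intro x hx i
    have e1 := (hmat _ (hmem x hx)).2 i
    rw [hchy x hx, hchp] at e1
    rw [ach_at P' p (hbt hx) i, e1]
    rfl
  have hBQ0 : ∀ x ∈ vO z Ω, ∀ i, ((B2.one Q).loc p).B i x =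
      S.toE (ach (at_ n M) Q.A p i (WithLp.ofLp x)) := fun x hx i => ach_at Q p (hbt hx) i
  set φ : Fin n → (Fin n → ℝ) → Matrix (Fin N) (Fin N) ℂ := fun i y =>
    ach (at_ n M) Q.A p i (y + y₀) with hφ
  have hφB : ∀ y ∈ Ω, ∀ i, ((B2.one Q).loc p).B i (tri z y) = S.toE (φ i y) := by
    intro y hy i
    rw [hBQ0 _ (htO y hy) i, htri]
  have hφ1 : ∀ i, ∀ y ∈ Ω, y ∉ K → φ i y = α i y := by
    intro i y hy hy'
    have hx := htO y hy
    have h5 := hnotin y hy hy'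
    apply S.toE_inj
    rw [← hφB y hy i]
    have e1 := hBP _ hx i
    rw [tr_tri] at e1
    rw [← e1]
    show S.formOf (Q.A _) _ = S.formOf (P'.A _) _
    rw [hAoff _ (by rw [hKM]; exact h5)]
  have hφs : ∀ i a b, ContDiffOn ℝ ∞ (fun y => φ i y a b) Ω := by
    intro i a b
    have e2 : ContDiffOn ℝ ∞ (fun x : E n => S.ent a b (((B2.one Q).loc p).B i x))
        (vO z Ω) := (S.ent a b).contDiff.comp_contDiffOn (hokQ.B_smooth i)
    refine (e2.comp (tri_cd z).contDiffOn fun y hy => htO y hy).congr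
      fun y hy => ?_
    show φ i y a b = S.ent a b (((B2.one Q).loc p).B i (tri z y))
    rw [hφB y hy i, S.ent_apply, S.ofE_toE]
  have hφk : ∀ i, ∀ y ∈ Ω, (φ i y)ᴴ = -φ i y := by
    intro i y hy
    apply S.toE_inj
    rw [S.toE_star, S.toE_neg, ← hφB y hy i]
    exact (B2.one Q).A.skew _ _
  set β : LR.Cn n N := fun i => glA Ω (φ i) (α i) with hβ
  have hβe : ∀ i a b, (fun y => β i y a b) = glA Ω (fun y => φ i y a b)
      (fun y => α i y a b) := by
    intro i a b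
    funext y
    by_cases hy : y ∈ Ω
    · rw [glA_in hy, hβ]
      simp only
      rw [glA_in hy]
    · rw [glA_out hy, hβ]
      simp only
      rw [glA_out hy]
  have hβU : LR.SmU β := by
    refine ⟨fun i a b => ?_, fun i y => ?_⟩
    · rw [hβe i a b]
      exact glA_sm hRg.op hK.isClosed hKΩ (hφs i a b) (hα.1 i a b)
        fun y hy hy' => by rw [hφ1 i y hy hy']
    · by_cases hy : y ∈ Ω
      · rw [hβ]
        simp only
        rw [glA_in hy, hφk i y hy]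
      · rw [hβ]
        simp only
        rw [glA_out hy, hα.2 i y]
  have hBQ : ∀ x ∈ vO z Ω, ∀ i, ((B2.one Q).loc p).B i x = S.toE (β i (tr z x)) := by
    intro x hx i
    have hx' : tr z x ∈ Ω := hx
    have e1 := hφB _ hx' i
    rw [tri_tr] at e1
    rw [e1, hβ]
    simp only
    rw [glA_in hx']
  have hgX : X g β := by
    refine hX g β hgs hgp hβU (fun y hy => ?_) (fun y hy => ?_) (fun i y hy => ?_) fun i y hy => ?_
    · rw [hg, glueO_in hy, hchp]
    · by_cases hy' : y ∈ Ω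
      · rw [hg, glueO_in hy', hf1 y hy' hy]
      · exact glueO_out hy'
    · rw [hβ]
      simp only
      rw [glA_in hy, hchp]
    · by_cases hy' : y ∈ Ω
      · rw [hβ]
        simp only
        rw [glA_in hy', hφ1 i y hy' hy]
      · rw [hβ]
        simp only
        rw [glA_out hy']
  have hor : LR.U.OrU Ω (LR.sg h) α (LR.sg g) β :=
    orU_K (P := B2.one P') (Q := B2.one Q) hRB hne hS (V := vO z Ω) (K := vO z K)
      (K₁ := vO z K₁) hRg.op hp.2.2.1 rfl hbt hpos hvKc hvKK hvK₁c (hvm hK₁Ω)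
      (by rw [← hmi, hKM₁] at hc₁; exact hc₁)
      (fun m hm X => by
        show S.formOf (P'.A m) X = S.formOf (Q.A m) X
        rw [hAoff m (by rw [hKM]; exact hm)])
      (fun x hx v w => by
        show S.bil (Q.g x) v w = S.bil (P'.g x) v w
        rw [h1 x (by rw [hKM]; exact hx)]) hh hgs hhp hgp hgPc hgQ hα hβU hBP hBQ
  obtain ⟨w, K', U, D, hwK, hUs, hUu, hU1, hUg⟩ := hrig g β hgs hgp
    (fun y hy => glueO_out hy) hβU (fun i y hy => glA_out hy) hgX hor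
  have hoffK : ∀ m, m ∉ (xc n p).symm '' vO z Ω → m ∉ inM (at_ n M) p K := fun m hm h => by
    rw [hKM] at h
    exact hm (image_mono (hvm hKΩ) h)
  have hΓΩ : ∀ x ∈ Γ, x ∉ (xc n p).symm '' vO z Ω := by
    intro x hx hx'
    rw [hΓ, hb] at hx
    obtain ⟨y, hy, rfl⟩ := hx'
    have h3 := cRungeB_mi_of_pos TM.fLoc p (hbt hy) (hpos hy)
    have h4 := hx.2
    rw [← ModelWithCorners.compl_interior] at h4
    exact h4 h3
  refine related_comp2 hR (mvD hRg D) (fun x hx => mv_off hRg (lc_w D) (hΓΩ x hx))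
    (gU_uni hRg hUs hU1 hUu) (fun x hx => gU_off hRg hU1 (hΓΩ x hx)) ?_ ?_
  · intro m v v'
    refine mv_met (P := B2.one P') (Q := B2.one Q) hRg D (fun m hm => ?_) ?_ m v v'
    · show S.bil (Q.g m) = S.bil (P'.g m)
      rw [h1 m (hoffK m hm)]
    · intro y hy
      have e1 := tch_on (lc_w D) (z := z) hy
      have e2 : tr z (H207.J.tch z (fun y => y + w y) y) = tr z y + w (tr z y) := by
        unfold H207.J.tch
        rw [tr_tri]
      have e3 : ((B2.one Q).loc p).g y = gl Q p y := rfl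
      have e5 : ((B2.one P').loc p).g (H207.J.tch z (fun y => y + w y) y) =
        gl P' p (H207.J.tch z (fun y => y + w y) y) := rfl
      rw [e3, e5, ← hgQ y hy, hwK, ← hgPc _ e1, e2]
  · intro m v
    refine mv_con2 (P := B2.one P') (Q := B2.one Q) hRg D hUs hU1 hBP hBQ (fun m hm => ?_)
      hUg m v
    show S.formOf (Q.A m) = S.formOf (P'.A m)
    rw [hAoff m (hoffK m hm)]

end Vale.Agent.P088.R2.H455.J

end
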