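import Vale.Agent.P088.R2.H455.J.K3
import Vale.Agent.P088.H207.N10
import Vale.Agent.P088.H207.O2

/-!
# P088: pairs with conformal metrics on an open set of a chart
-/

set_option linter.all false

open Bundle Manifold MeasureTheory Set Filter Topology
open scoped ContDiff Matrix ENNReal

noncomputable section

namespace Vale.Agent.P088.R2.H455.J

open Vale.Agent.P088 Vale.Agent.P088.B Vale.Agent.P088.EYM
open Vale.Agent.P088.H207 (gl ch_at src_at gch_at IsDom IsOpn inM MatchO)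
open Vale.Agent.P088.H207.R (vO vO_sub vO_compact Rg rg_of nbK reg_between)
open Vale.Agent.P088.H207.J (tr tri tr_tri tri_tr tr_cd tri_cd tr_fd int_tr)

universe u

section

variable {n N : ℕ} [NeZero n] {M : Type u} [TopologicalSpace M]
  [ChartedSpace (EuclideanHalfSpace n) M] [IsManifold (𝓡∂ n) ∞ M] [T2Space M] [CompactSpace M]

theorem op_tg {p : M} {W : Set (Fin n → ℝ)} (h : IsOpn (at_ n M) p W) {y : Fin n → ℝ}
    (hy : y ∈ W) : tri (xc n p p) y ∈ tg n p := by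
  obtain ⟨-, x, hx, hxy⟩ := h.2 y hy
  rw [src_at] at hx
  rw [ch_at, ch_at] at hxy
  have e2 : xc n p x = tri (xc n p p) y := by
    apply WithLp.ofLp_injective 2
    rw [hxy]
    funext j
    show y j + (xc n p p) j = (xc n p p) j + y j
    ring
  exact e2 ▸ (xc n p).map_source hx

theorem gch_tri (P : Pair (at_ n M) N) {p : M} {W : Set (Fin n → ℝ)}
    (h : IsOpn (at_ n M) p W) {y : Fin n → ℝ} (hy : y ∈ W) :
    gch (at_ n M) P.g p (y + (at_ n M).ch p p) = gl P p (tri (xc n p p) y) := by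
  have e1 := gch_at P p (op_tg h hy)
  have e2 : WithLp.ofLp (tri (xc n p p) y) = y + (at_ n M).ch p p := by
    rw [ch_at]
    funext j
    show (xc n p p) j + y j = y j + (xc n p p) j
    ring
  rw [e2] at e1
  exact e1

theorem gch_cd (P : Pair (at_ n M) N) {p : M} {W : Set (Fin n → ℝ)}
    (h : IsOpn (at_ n M) p W) (i j : Fin n) :
    ContDiffOn ℝ ∞ (fun y => gch (at_ n M) P.g p (y + (at_ n M).ch p p) i j) W := by
  letI := borel M
  haveI : BorelSpace M := ⟨rfl⟩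
  obtain ⟨-, hok, -, -⟩ := TM.fLoc n N M
  have e2 : ContDiffOn ℝ ∞ (fun x : E n => gl P p x i j) (tg n p) :=
    (hok (B2.one P) p).g_smooth i j
  refine (e2.comp (tri_cd (xc n p p)).contDiffOn fun y hy => op_tg h hy).congr fun y hy => ?_
  rw [gch_tri P h hy]
  rfl

theorem gch_pd (P : Pair (at_ n M) N) {p : M} {W : Set (Fin n → ℝ)}
    (h : IsOpn (at_ n M) p W) {y : Fin n → ℝ} (hy : y ∈ W) :
    (gch (at_ n M) P.g p (y + (at_ n M).ch p p)).PosDef := by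
  letI := borel M
  haveI : BorelSpace M := ⟨rfl⟩
  obtain ⟨-, hok, -, -⟩ := TM.fLoc n N M
  rw [gch_tri P h hy]
  exact (hok (B2.one P) p).g_pos _ (op_tg h hy)

/-- A point of the open set in the chart. -/
theorem op_pt {p : M} {W : Set (Fin n → ℝ)} (h : IsOpn (at_ n M) p W) {y : Fin n → ℝ}
    (hy : y ∈ W) : ∃ x ∈ inM (at_ n M) p W, (at_ n M).ch p x = y + (at_ n M).ch p p := by
  obtain ⟨-, x, hx, hxy⟩ := h.2 y hy
  refine ⟨x, ⟨hx, ?_⟩, hxy⟩
  rw [hxy, add_sub_cancel_right]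
  exact hy

end

section

variable {n : ℕ}

theorem h00 [NeZero n] {h : Matrix (Fin n) (Fin n) ℝ} (hp : h.PosDef) : 0 < h 0 0 := by
  have h1 := hp.re_dotProduct_pos (x := Pi.single 0 1) (by simp)
  simpa using h1

/-- The conformal factor. -/
def cf [NeZero n] (h g : LR.MF n) (y : Fin n → ℝ) : ℝ := g y 0 0 / h y 0 0

theorem cf_eq [NeZero n] {h g : LR.MF n} {y : Fin n → ℝ} (hp : (h y).PosDef)
    (hg : ∃ t : ℝ, g y = t • h y) : g y = cf h g y • h y := by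
  obtain ⟨t, ht⟩ := hg
  have h1 := h00 hp
  have h2 : cf h g y = t := by
    unfold cf
    rw [ht, Matrix.smul_apply, smul_eq_mul]
    field_simp
  rw [h2, ht]

theorem cf_pos [NeZero n] {h g : LR.MF n} {y : Fin n → ℝ} (hp : (h y).PosDef)
    (hg : (g y).PosDef) : 0 < cf h g y := div_pos (h00 hg) (h00 hp)

theorem smul_sm {c : (Fin n → ℝ) → ℝ} {h : LR.MF n} (hc : ContDiff ℝ ∞ c) (hh : LR.SmM h) :
    LR.SmM (fun y => c y • h y) := fun i j => by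
  have e1 : (fun y => (c y • h y) i j) = fun y => c y * h y i j := rfl
  rw [e1]
  exact hc.mul (hh i j)

theorem smul_pd {c : (Fin n → ℝ) → ℝ} {h : LR.MF n} (hc : ∀ y, 0 < c y)
    (hh : ∀ y, (h y).PosDef) (y : Fin n → ℝ) : (c y • h y).PosDef := (hh y).smul (hc y)

end

/-- Rigidity inside the conformal class of `h` on `Ω`, for connections with the property `Y`. -/
def RigK (n N : ℕ) (Ω : Set (Fin n → ℝ)) (h : LR.MF n) (Y : LR.Cn n N → Prop) : Prop :=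
  ∀ c₁ c₂ : (Fin n → ℝ) → ℝ, ContDiff ℝ ∞ c₁ → ContDiff ℝ ∞ c₂ → (∀ x, 0 < c₁ x) →
  (∀ x, 0 < c₂ x) → (∀ x ∉ Ω, c₂ x = c₁ x) →
  ∀ A₁ A₂ : LR.Cn n N, LR.SmU A₁ → LR.SmU A₂ → (∀ i, ∀ x ∉ Ω, A₂ i x = A₁ i x) → Y A₁ → Y A₂ →
  LR.U.OrU Ω (LR.sg fun x => c₁ x • h x) A₁ (LR.sg fun x => c₂ x • h x) A₂ →
  (∀ x, c₂ x = c₁ x) ∧ ∃ U : LR.U.MC n N, LR.H158.SmC U ∧ (∀ x, (U x)ᴴ * U x = 1) ∧
    (∀ x ∉ Ω, U x = 1) ∧
    ∀ i, ∀ x ∈ Ω, A₂ i x = (U x)ᴴ * A₁ i x * U x + (U x)ᴴ * LR.pdm i U x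

/-- The identity map as a change of variables. -/
theorem jm_zero {n : ℕ} (y : Fin n → ℝ) : LR.jm (fun _ : Fin n → ℝ => (0 : Fin n → ℝ)) y = 1 := by
  ext i j
  unfold LR.jm LR.pd
  simp

theorem dif_zero {n : ℕ} (Ω : Set (Fin n → ℝ)) : LR.Dif Ω (fun _ => 0) (fun y => y) where
  sw := contDiff_const
  sK := contDiff_id
  l := fun x => by simp
  r := fun x => by simp
  z := fun x _ => rfl
  dp := fun x => by rw [jm_zero, Matrix.det_one]; exact one_pos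

/-- `RigP` from `RigK`. -/
theorem rigP_of {n N : ℕ} [NeZero n] {Ω : Set (Fin n → ℝ)} {h : LR.MF n}
    {Y : LR.Cn n N → Prop} (hC : RigK n N Ω h Y) (hh : LR.SmM h) (hhp : ∀ x, (h x).PosDef)
    {c : (Fin n → ℝ) → ℝ} (hc : ContDiff ℝ ∞ c) (hc0 : ∀ y, 0 < c y) {α : LR.Cn n N}
    (hα : LR.SmU α) (hY : Y α) :
    RigP n N Ω (fun y => c y • h y) α (fun g β => (∀ y, ∃ t : ℝ, g y = t • h y) ∧ Y β) := by
  intro g β hg hgp hgoff hβ hβoff hX hor
  have e1 : g = fun y => cf h g y • h y := funext fun y => cf_eq (hhp y) (hX.1 y)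
  have s2 : ContDiff ℝ ∞ (cf h g) := (hg 0 0).div (hh 0 0) fun y => (h00 (hhp y)).ne'
  have s3 : ∀ y, 0 < cf h g y := fun y => cf_pos (hhp y) (hgp y)
  have s4 : ∀ y ∉ Ω, cf h g y = c y := by
    intro y hy
    unfold cf
    rw [hgoff y hy]
    show c y * h y 0 0 / h y 0 0 = c y
    have := h00 (hhp y)
    field_simp
  have e0 : LR.sg g = LR.sg fun y => cf h g y • h y := congrArg LR.sg e1
  rw [e0] at hor
  obtain ⟨h1, U, hU1, hU2, hU3, hU4⟩ := hC c (cf h g) hc s2 hc0 s3 s4 α β hα hβ hβoff hY hX.2 hor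
  refine ⟨fun _ => 0, fun y => y, U, dif_zero Ω, fun y => ?_, hU1, hU2, hU3, fun i x hx => ?_⟩
  · rw [jm_zero, Matrix.transpose_one, one_mul, mul_one, add_zero]
    show g y = c y • h y
    rw [← h1 y]
    exact cf_eq (hhp y) (hX.1 y)
  · have e2 : LR.pb (fun _ => 0) α i x = α i x := by
      unfold LR.pb
      rw [jm_zero, add_zero, Finset.sum_eq_single i]
      · simp
      · intro j _ hj
        rw [Matrix.one_apply_ne hj]
        simp
      · intro hc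
        exact absurd (Finset.mem_univ i) hc
    rw [hU4 i x hx, e2]

/-- A cut-off. -/
theorem ex_chi {n : ℕ} {C W : Set (Fin n → ℝ)} (hC : IsCompact C) (hW : IsOpen W) (h : C ⊆ W) :
    ∃ χ : (Fin n → ℝ) → ℝ, ContDiff ℝ ∞ χ ∧ (∀ y ∈ C, χ y = 1) ∧ (∀ y, 0 ≤ χ y) ∧
      (∀ y, χ y ≤ 1) ∧ ∃ L : Set (Fin n → ℝ), IsClosed L ∧ L ⊆ W ∧ ∀ y ∉ L, χ y = 0 := by
  obtain ⟨L, hL, h1, h2⟩ := exists_compact_between hC hW h
  obtain ⟨f, hf0, hf1, hf⟩ := exists_contMDiffMap_zero_one_of_isClosed (𝓘(ℝ, Fin n → ℝ))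
    (n := ⊤) (s := (interior L)ᶜ) (t := C) isOpen_interior.isClosed_compl hC.isClosed
    (disjoint_left.2 fun x hx hx' => hx (h1 hx'))
  refine ⟨f, f.contMDiff.contDiff, fun y hy => hf1 hy, fun y => (hf y).1, fun y => (hf y).2, L,
    hL.isClosed, h2, fun y hy => hf0 fun hy' => hy (interior_subset hy')⟩

/-- Extension of a positive function. -/
theorem ex_ext {n : ℕ} {C W : Set (Fin n → ℝ)} (hC : IsCompact C) (hW : IsOpen W) (h : C ⊆ W)
    {t : (Fin n → ℝ) → ℝ} (ht : ContDiffOn ℝ ∞ t W) (ht0 : ∀ y ∈ W, 0 < t y) :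
    ∃ c : (Fin n → ℝ) → ℝ, ContDiff ℝ ∞ c ∧ (∀ y, 0 < c y) ∧ ∀ y ∈ C, c y = t y := by
  obtain ⟨χ, h1, h2, h3, h4, L, h5, h6, h7⟩ := ex_chi hC hW h
  refine ⟨fun y => 1 + χ y * (t y - 1), ?_, fun y => ?_, fun y hy => ?_⟩
  · rw [contDiff_iff_contDiffAt]
    intro y
    by_cases hy : y ∈ W
    · exact (contDiffOn_const.add (h1.contDiffOn.mul (ht.sub contDiffOn_const))).contDiffAt
        (hW.mem_nhds hy)
    · have e1 : (fun y => 1 + χ y * (t y - 1)) =ᶠ[𝓝 y] fun _ => (1 : ℝ) := by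
        filter_upwards [h5.isOpen_compl.mem_nhds (fun hy' => hy (h6 hy'))] with x hx
        rw [h7 x hx]; ring
      exact contDiffAt_const.congr_of_eventuallyEq e1
  · show 0 < 1 + χ y * (t y - 1)
    by_cases hy : y ∈ L
    · have h8 := ht0 y (h6 hy)
      have h9 := h3 y
      have h10 := h4 y
      rcases h10.lt_or_eq with h11 | h11
      · have := mul_nonneg h9 h8.le
        nlinarith
      · rw [h11]; linarith
    · rw [h7 y hy]; norm_num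
  · show 1 + χ y * (t y - 1) = t y
    rw [h2 y hy]; ring

/-- **Pairs with metrics in one conformal class, on a domain of a chart.** -/
theorem dom_cls {n : ℕ} [NeZero n] (hn : 3 ≤ n) {N : ℕ} (hN : 1 ≤ N) {Ω W : Set (Fin n → ℝ)}
    {h : LR.MF n} (hh : LR.SmM h) (hhp : ∀ y, (h y).PosDef) {α : LR.Cn n N} (hα : LR.SmU α)
    {Y : LR.Cn n N → Prop} (hC : RigK n N Ω h Y) (hY : Y α)
    {M : Type u} [TopologicalSpace M]
    [ChartedSpace (EuclideanHalfSpace n) M] [IsManifold (𝓡∂ n) ∞ M] [T2Space M] [CompactSpace M]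
    [ConnectedSpace M] (Z : At n M) (hZ : Z = at_ n M) (Γ O₀ : Set M) (hO₀ : IsOpen O₀)
    (hΓ : Γ = O₀ ∩ bd Z) (hne : Γ.Nonempty) (P P' Q Q' : Pair Z N)
    (hd : Vale.Agent.P088.B.SameData Γ P Q)
    (hP : Related Γ P P') (hQ : Related Γ Q Q') (p : M) (hW : IsOpn Z p W) (hp : IsDom Z p Ω)
    (hcl : closure Ω ⊆ W)
    (hmet : ∀ x ∈ inM Z p W, (∃ t : ℝ, gch Z P'.g p (Z.ch p x) = t • h (Z.ch p x - Z.ch p p)) ∧
      ∃ t : ℝ, gch Z Q'.g p (Z.ch p x) = t • h (Z.ch p x - Z.ch p p))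
    (hcon : ∀ x ∈ inM Z p Ω, ∀ i, ach Z P'.A p i (Z.ch p x) = α i (Z.ch p x - Z.ch p p))
    (K : Set (Fin n → ℝ)) (hK : IsCompact K) (hKΩ : K ⊆ Ω)
    (hc : IsPreconnected ((bd Z)ᶜ \ inM Z p K))
    (hpw : B8.PwLe (inM Z p K)ᶜ Γ P' Q')
    (hAoff : ∀ x ∉ inM Z p K, Q'.A x = P'.A x)
    (hYβ : ∀ β : LR.Cn n N, LR.SmU β →
      (∀ i, ∀ y ∈ Ω, β i y = ach Z Q'.A p i (y + Z.ch p p)) → (∀ i, ∀ y ∉ K, β i y = α i y) →
      Y β) :
    Related Γ P Q := by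
  have hd1 : Vale.Agent.P088.B.SameData Γ P Q' :=
    Vale.Agent.P088.H207.O.same_symm (Vale.Agent.P088.B.same_related Z hZ hO₀ hΓ hne hQ
      (Vale.Agent.P088.H207.O.same_symm hd))
  suffices hrel : Related Γ P Q' by
    subst hZ
    exact Vale.Agent.P088.H207.O.related_tr hrel (Vale.Agent.P088.H207.O.related_inv hQ)
  subst hZ
  obtain ⟨f, hf⟩ : ∃ f : LR.MF n, f = fun y => gch (at_ n M) P'.g p (y + (at_ n M).ch p p) :=
    ⟨_, rfl⟩
  have hfs : ∀ i j, ContDiffOn ℝ ∞ (fun y => f y i j) W := by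
    rw [hf]; exact gch_cd P' hW
  have hfp : ∀ y ∈ W, (f y).PosDef := by
    rw [hf]; exact fun y hy => gch_pd P' hW hy
  have hmem : ∀ y ∈ W, ∃ x ∈ inM (at_ n M) p W, (at_ n M).ch p x = y + (at_ n M).ch p p :=
    fun y hy => op_pt hW hy
  have hft : ∀ y ∈ W, ∃ t : ℝ, f y = t • h y := by
    intro y hy
    obtain ⟨x, hx, hxy⟩ := hmem y hy
    obtain ⟨t, ht⟩ := (hmet x hx).1
    rw [hxy, add_sub_cancel_right] at ht
    exact ⟨t, by rw [hf]; exact ht⟩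
  obtain ⟨c, hc1, hc2, hc3⟩ := ex_ext (hp.2.2.1.isCompact_closure) hW.1 hcl
    (t := cf h f) ((hfs 0 0).div (hh 0 0).contDiffOn fun y _ => (h00 (hhp y)).ne')
    fun y hy => cf_pos (hhp y) (hfp y hy)
  obtain ⟨K₁, k1, k2, k3, k4⟩ := nbK hp hK hKΩ hc
  have hsub : inM (at_ n M) p Ω ⊆ inM (at_ n M) p W := fun x hx =>
    ⟨hx.1, hcl (subset_closure hx.2)⟩
  refine bg_domU hn hN (smul_sm hc1 hh) (smul_pd hc2 hhp) hα (rigP_of hC hh hhp hc1 hc2 hα hY)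
    (at_ n M) rfl Γ O₀ hO₀ hΓ hne P P' Q' hd1 hP p hp ?_ K K₁ hK k2 k1 k3 hc k4 hpw hAoff ?_
  · intro x hx
    refine ⟨?_, hcon x hx⟩
    have hy : (at_ n M).ch p x - (at_ n M).ch p p ∈ Ω := hx.2
    have e1 := cf_eq (hhp _) (hft _ (hcl (subset_closure hy)))
    rw [← hc3 _ (subset_closure hy)] at e1
    refine Eq.trans ?_ e1
    rw [hf]
    show _ = gch (at_ n M) P'.g p ((at_ n M).ch p x - (at_ n M).ch p p + (at_ n M).ch p p)
    rw [sub_add_cancel]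
  · intro g β hg hgp hβ hin hout hAin hAout
    refine ⟨fun y => ?_, hYβ β hβ hAin hAout⟩
    by_cases hy : y ∈ Ω
    · obtain ⟨x, hx, hxy⟩ := hmem y (hcl (subset_closure hy))
      obtain ⟨t, ht⟩ := (hmet x hx).2
      rw [hxy, add_sub_cancel_right] at ht
      exact ⟨t, by rw [hin y hy, ht]⟩
    · exact ⟨c y, hout y fun hy' => hy (hKΩ hy')⟩

end Vale.Agent.P088.R2.H455.J

end
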