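import Vale.Agent.P088.R2.H455.J.K4
import Vale.Agent.P088.R2.H455.T.P3
import Vale.Agent.P088.R2.H794.Cell

/-!
# P088, T2: extension of a conformal class and of a connection from a small ball
-/

set_option linter.all false

open MeasureTheory Set Filter Topology
open scoped ContDiff Matrix

noncomputable section

namespace Vale.Agent.P088.R2.H455.J

open Vale.Agent.P088.LR Vale.Agent.P088.LR.CF Vale.Agent.P088.LR.U Vale.Agent.P088.LR.H158
open Vale.Agent.P088.HY.H794 (chR chR_sm chR_nonneg chR_le chR_one chR_zero chR_bd exR exR_in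
  exR_out exR_sm exR_pos exR_near exR_nh ClR oB isOpen_oB zero_mem_oB reg_oB closure_oB
  abs_le_of_oB norm_le_of_oB in_r in_r' scal_ifd cont_sq)
open Vale.Agent.P088.R2.H455.T (RigTR ClRC)

variable {n N : ℕ}

/-- The exterior of a ball is connected. -/
theorem conn_out (hn : 2 ≤ n) {R : ℝ} (hR : 0 < R) :
    IsPreconnected {y : Fin n → ℝ | R ^ 2 < ∑ j, y j ^ 2} := by
  have h1 : IsPreconnected ({0}ᶜ : Set (Fin n → ℝ)) := by
    refine (isConnected_compl_singleton_of_one_lt_rank ?_ 0).isPreconnected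
    rw [rank_fin_fun]
    exact_mod_cast (by omega : 1 < n)
  have hq : Continuous fun y : Fin n → ℝ => √(∑ j, y j ^ 2) :=
    (continuous_finsetSum _ fun j _ => (continuous_apply j).pow 2).sqrt
  have hq0 : ∀ y : Fin n → ℝ, y ≠ 0 → 0 < √(∑ j, y j ^ 2) := by
    intro y hy
    obtain ⟨j, hj⟩ := Function.ne_iff.1 hy
    have h2 : 0 < y j ^ 2 := by
      have : y j ≠ 0 := hj
      positivity
    exact Real.sqrt_pos.2 (lt_of_lt_of_le h2 (Finset.single_le_sum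
      (f := fun j => y j ^ 2) (fun i _ => sq_nonneg _) (Finset.mem_univ j)))
  have hsm : ∀ (t : ℝ) (y : Fin n → ℝ), ∑ j, (t • y) j ^ 2 = t ^ 2 * ∑ j, y j ^ 2 := by
    intro t y
    rw [Finset.mul_sum]
    exact Finset.sum_congr rfl fun j _ => by rw [Pi.smul_apply, smul_eq_mul]; ring
  have e : {y : Fin n → ℝ | R ^ 2 < ∑ j, y j ^ 2} =
      (fun y : Fin n → ℝ => (1 + R / √(∑ j, y j ^ 2)) • y) '' ({0}ᶜ) := by
    ext z
    constructor
    · intro hz
      have hz' : R ^ 2 < ∑ j, z j ^ 2 := hz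
      obtain ⟨q, hqe⟩ : ∃ q : ℝ, q = √(∑ j, z j ^ 2) := ⟨_, rfl⟩
      have hqR : R < q := by
        rw [hqe]
        exact Real.lt_sqrt_of_sq_lt hz'
      have hq2 : q ^ 2 = ∑ j, z j ^ 2 := by
        rw [hqe, Real.sq_sqrt (Finset.sum_nonneg fun j _ => sq_nonneg _)]
      have hqp : 0 < q := hR.trans hqR
      have hqr : 0 < q - R := by linarith
      have ht : 0 < 1 - R / q := by
        rw [sub_pos, div_lt_one hqp]; exact hqR
      have h3 : √(∑ j, ((1 - R / q) • z) j ^ 2) = q - R := by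
        rw [hsm, ← hq2, ← mul_pow, Real.sqrt_sq (by positivity)]
        field_simp
      refine ⟨(1 - R / q) • z, ?_, ?_⟩
      · intro h0
        have h0' : (1 - R / q) • z = 0 := h0
        rw [smul_eq_zero] at h0'
        rcases h0' with h | h
        · exact ht.ne' h
        · rw [h] at hz'
          simp at hz'
          nlinarith [sq_nonneg R]
      · show (1 + R / √(∑ j, ((1 - R / q) • z) j ^ 2)) • (1 - R / q) • z = z
        rw [h3, smul_smul]
        have h4 : (1 + R / (q - R)) * (1 - R / q) = 1 := by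
          field_simp
          ring
        rw [h4, one_smul]
    · rintro ⟨y, hy, rfl⟩
      have hy0 : y ≠ 0 := hy
      have h2 := hq0 y hy0
      show R ^ 2 < ∑ j, ((1 + R / √(∑ j, y j ^ 2)) • y) j ^ 2
      rw [hsm]
      obtain ⟨q, hqe⟩ : ∃ q : ℝ, q = √(∑ j, y j ^ 2) := ⟨_, rfl⟩
      have hq2 : ∑ j, y j ^ 2 = q ^ 2 := by
        rw [hqe, Real.sq_sqrt (Finset.sum_nonneg fun j _ => sq_nonneg _)]
      rw [← hqe] at h2 ⊢
      rw [hq2]
      have h5 : (1 + R / q) ^ 2 * q ^ 2 = (q + R) ^ 2 := by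
        field_simp
      rw [h5]
      nlinarith
  rw [e]
  refine h1.image _ ?_
  refine ContinuousOn.smul (continuousOn_const.add (continuousOn_const.div hq.continuousOn
    fun y hy => (hq0 y hy).ne')) continuousOn_id

/-- Products in the scale `r`. -/
theorem smul_scale {r : ℝ} (hr : 0 < r) {O : Set (LR.V n)} (hO : IsOpen O) {f : LR.V n → ℝ}
    {g : LR.V n → ℂ} (hf : ContDiff ℝ ∞ f) (hg : ContDiffOn ℝ ∞ g O) {k : ℕ} {X A : ℝ}
    (hX : Cl k X f) (hX0 : 0 ≤ X)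
    (hA : ∀ l ≤ k, ∀ y ∈ O, r ^ l * ‖iteratedFDeriv ℝ l g y‖ ≤ A) {l : ℕ} (hl : l ≤ k)
    {y : LR.V n} (hy : y ∈ O) :
    r ^ l * ‖iteratedFDeriv ℝ l (fun y => f (r⁻¹ • y) • g y) y‖ ≤ 2 ^ l * (X * A) := by
  have hfr : ContDiff ℝ ∞ fun y : LR.V n => f (r⁻¹ • y) := hf.comp (contDiff_const_smul _)
  have h1 := norm_iteratedFDerivWithin_smul_le (𝕜 := ℝ) (N := ∞) hfr.contDiffOn hg hO.uniqueDiffOn
    hy (n := l) (by exact_mod_cast le_top)
  rw [iteratedFDerivWithin_of_isOpen l hO hy] at h1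
  have h2 : ∀ i ≤ l, r ^ l * ((l.choose i : ℝ) *
      ‖iteratedFDerivWithin ℝ i (fun y => f (r⁻¹ • y)) O y‖ *
      ‖iteratedFDerivWithin ℝ (l - i) g O y‖) ≤ (l.choose i : ℝ) * (X * A) := by
    intro i hi
    rw [iteratedFDerivWithin_of_isOpen i hO hy, iteratedFDerivWithin_of_isOpen (l - i) hO hy]
    have e : r ^ l = r ^ i * r ^ (l - i) := by rw [← pow_add, Nat.add_sub_cancel' hi]
    have h3 := scal_ifd hr hf i y
    have h4 := hX i (hi.trans hl) (r⁻¹ • y)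
    have h5 := hA (l - i) ((Nat.sub_le _ _).trans hl) y hy
    calc r ^ l * ((l.choose i : ℝ) * ‖iteratedFDeriv ℝ i (fun y => f (r⁻¹ • y)) y‖ *
          ‖iteratedFDeriv ℝ (l - i) g y‖)
        = (l.choose i : ℝ) * ((r ^ i * ‖iteratedFDeriv ℝ i (fun y => f (r⁻¹ • y)) y‖) *
          (r ^ (l - i) * ‖iteratedFDeriv ℝ (l - i) g y‖)) := by rw [e]; ring
      _ ≤ (l.choose i : ℝ) * (X * A) := by
          refine mul_le_mul_of_nonneg_left ?_ (by positivity)
          rw [h3]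
          exact mul_le_mul h4 h5 (by positivity) hX0
  calc r ^ l * ‖iteratedFDeriv ℝ l (fun y => f (r⁻¹ • y) • g y) y‖
      ≤ r ^ l * ∑ i ∈ Finset.range (l + 1), (l.choose i : ℝ) *
          ‖iteratedFDerivWithin ℝ i (fun y => f (r⁻¹ • y)) O y‖ *
          ‖iteratedFDerivWithin ℝ (l - i) g O y‖ := mul_le_mul_of_nonneg_left h1 (by positivity)
    _ = ∑ i ∈ Finset.range (l + 1), r ^ l * ((l.choose i : ℝ) *
          ‖iteratedFDerivWithin ℝ i (fun y => f (r⁻¹ • y)) O y‖ *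
          ‖iteratedFDerivWithin ℝ (l - i) g O y‖) := Finset.mul_sum _ _ _
    _ ≤ ∑ i ∈ Finset.range (l + 1), (l.choose i : ℝ) * (X * A) :=
        Finset.sum_le_sum fun i hi => h2 i (by simpa [Nat.lt_succ_iff] using hi)
    _ = 2 ^ l * (X * A) := by
        rw [← Finset.sum_mul]
        congr 1
        have := Nat.sum_range_choose l
        exact_mod_cast this

/-- The cut-off of a connection. -/
def exA (r : ℝ) (a : Cn n N) : Cn n N := fun i y => ((chR (r⁻¹ • y) : ℝ) : ℂ) • a i y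

theorem exA_ap (r : ℝ) (a : Cn n N) (i : Fin n) (p q : Fin N) :
    (fun y => exA r a i y p q) = fun y => chR (r⁻¹ • y) • a i y p q := by
  funext y
  rw [Complex.real_smul]
  rfl

section

variable {r : ℝ} (hr : 0 < r) {a : Cn n N}

include hr

theorem exA_in {i : Fin n} {y : LR.V n} (hy : ∑ j, y j ^ 2 ≤ (3 / 2 * r) ^ 2) :
    exA r a i y = a i y := by
  unfold exA
  rw [chR_one ((in_r hr).2 (by rw [mul_pow] at hy; linarith)), Complex.ofReal_one, one_smul]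

theorem exA_nh {y : LR.V n} (hy : y ∉ oB n (2 * r)) :
    (fun y => chR (r⁻¹ • y)) =ᶠ[𝓝 y] fun _ => (0 : ℝ) := by
  have h0 : ¬ ∑ j, y j ^ 2 < (2 * r) ^ 2 := hy
  have hr2 : 0 < r ^ 2 := by positivity
  have h1 : IsOpen {z : LR.V n | 49 / 16 * r ^ 2 < ∑ j, z j ^ 2} :=
    isOpen_lt continuous_const cont_sq
  have h2 : y ∈ {z : LR.V n | 49 / 16 * r ^ 2 < ∑ j, z j ^ 2} := by
    show 49 / 16 * r ^ 2 < ∑ j, y j ^ 2
    nlinarith
  filter_upwards [h1.mem_nhds h2] with z hz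
  exact chR_zero ((in_r' hr).2 (le_of_lt hz))

theorem exA_smU (ha : ∀ i p q, ContDiffOn ℝ ∞ (fun y => a i y p q) (oB n (2 * r)))
    (hs : ∀ i, ∀ y ∈ oB n (2 * r), (a i y)ᴴ = -a i y) : SmU (exA r a) := by
  refine ⟨fun i p q => ?_, fun i y => ?_⟩
  · rw [exA_ap, contDiff_iff_contDiffAt]
    intro y
    by_cases hy : y ∈ oB n (2 * r)
    · have h1 : ContDiffOn ℝ ∞ (fun y => chR (r⁻¹ • y) • a i y p q) (oB n (2 * r)) :=
        ((chR_sm.comp (contDiff_const_smul _)).contDiffOn).smul (ha i p q)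
      exact h1.contDiffAt ((isOpen_oB _).mem_nhds hy)
    · have h1 : (fun y => chR (r⁻¹ • y) • a i y p q) =ᶠ[𝓝 y] fun _ => (0 : ℂ) := by
        filter_upwards [exA_nh hr hy] with z hz
        rw [hz, zero_smul]
      exact contDiffAt_const.congr_of_eventuallyEq h1
  · unfold exA
    rw [Matrix.conjTranspose_smul, Complex.star_def, Complex.conj_ofReal]
    by_cases hy : y ∈ oB n (2 * r)
    · rw [hs i y hy, smul_neg]
    · have h1 : chR (r⁻¹ • y) = 0 := (exA_nh hr hy).self_of_nhds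
      rw [h1, Complex.ofReal_zero, zero_smul, zero_smul, neg_zero]

theorem exA_cl {B X : ℝ} (hr1 : r ≤ 1) (hB : 0 ≤ B) {k : ℕ} (hX : Cl k X (chR : LR.V n → ℝ))
    (hX0 : 0 ≤ X) (ha : ∀ i p q, ContDiffOn ℝ ∞ (fun y => a i y p q) (oB n (2 * r)))
    (hb : ∀ y ∈ oB n (2 * r), ∀ i p q, ∀ l ≤ k,
      ‖iteratedFDeriv ℝ l (fun y => a i y p q) y‖ ≤ B) (i : Fin n) :
    ClRC k r (r * (2 ^ k * (X * B))) (exA r a i) := by
  intro p q l hl y
  rw [exA_ap]
  by_cases hy : y ∈ oB n (2 * r)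
  · have h1 := smul_scale hr (isOpen_oB (2 * r)) chR_sm (ha i p q) hX hX0 (A := B)
      (fun l hl y hy => by
        have h2 := hb y hy i p q l hl
        have h3 : r ^ l ≤ 1 := pow_le_one₀ hr.le hr1
        calc r ^ l * ‖iteratedFDeriv ℝ l (fun y => a i y p q) y‖ ≤ 1 * B :=
              mul_le_mul h3 h2 (norm_nonneg _) zero_le_one
          _ = B := one_mul B) hl hy
    calc r ^ (l + 1) * ‖iteratedFDeriv ℝ l (fun y => chR (r⁻¹ • y) • a i y p q) y‖
        = r * (r ^ l * ‖iteratedFDeriv ℝ l (fun y => chR (r⁻¹ • y) • a i y p q) y‖) := by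
          rw [pow_succ]; ring
      _ ≤ r * (2 ^ l * (X * B)) := mul_le_mul_of_nonneg_left h1 hr.le
      _ ≤ _ := mul_le_mul_of_nonneg_left (mul_le_mul_of_nonneg_right
          (pow_le_pow_right₀ (by norm_num) hl) (by positivity)) hr.le
  · have e : (fun y => chR (r⁻¹ • y) • a i y p q) =ᶠ[𝓝 y] fun _ => (0 : ℂ) := by
      filter_upwards [exA_nh hr hy] with z hz
      rw [hz, zero_smul]
    rw [(e.iteratedFDeriv ℝ l).self_of_nhds]
    have h0 : iteratedFDeriv ℝ l (fun _ : LR.V n => (0 : ℂ)) y = 0 := by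
      rw [iteratedFDeriv_zero_fun]; rfl
    rw [h0, norm_zero, mul_zero]
    positivity

end

/-- **Rigidity of a conformal class in a small cell.** -/
theorem rigK_cell {k : ℕ} (hk : 1 ≤ k) {B ε : ℝ} (hB : 0 < B) (hε : 0 < ε)
    (hR : RigTR n N k B ε) : ∃ X : ℝ, 1 ≤ X ∧ Cl k X (chR : LR.V n → ℝ) ∧
    ∃ r₀ : ℝ, 0 < r₀ ∧ r₀ ≤ 1 ∧ r₀ * (2 ^ k * (X * B)) ≤ ε ∧
    ∀ r : ℝ, 0 < r → r ≤ r₀ → ∀ f : MF n,
    (∀ i j, ContDiffOn ℝ ∞ (fun y => f y i j) (oB n (2 * r))) →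
    (∀ y ∈ oB n (2 * r), (f y).PosDef) →
    (∀ y ∈ oB n (2 * r), ∀ i j, ∀ l ≤ k, ‖iteratedFDeriv ℝ l (fun y => f y i j) y‖ ≤ B) →
    1 / B ≤ (f 0).det → ∀ Ω : Set (LR.V n), IsOpen Ω → interior (closure Ω) = Ω →
    IsPreconnected (closure Ω)ᶜ → Ω ⊆ oB n (3 / 2 * r) → RigK n N Ω (exR r f) (fun A => ∀ i, ClRC k r ε (A i)) := by
  obtain ⟨X, hX1, hX⟩ := chR_bd n k
  have hX0 : 0 < X := by linarith
  refine ⟨X, hX1, hX, min 1 (ε / (2 * (2 ^ k * (X * B)))), lt_min one_pos (by positivity),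
    min_le_left _ _, ?_, ?_⟩
  · have h1 : min 1 (ε / (2 * (2 ^ k * (X * B)))) * (2 ^ k * (X * B)) ≤
        ε / (2 * (2 ^ k * (X * B))) * (2 ^ k * (X * B)) :=
      mul_le_mul_of_nonneg_right (min_le_right _ _) (by positivity)
    have h2 : ε / (2 * (2 ^ k * (X * B))) * (2 ^ k * (X * B)) = ε / 2 := by field_simp
    linarith
  intro r hr hr0 f hf hfp hfb hdet Ω hΩ hreg hcn hΩr
  have hr1 : r ≤ 1 := hr0.trans (min_le_left _ _)
  have hr2 : 2 ^ k * (X * (2 * r * B)) ≤ ε := by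
    have h1 := hr0.trans (min_le_right _ _)
    rw [le_div_iff₀ (by positivity)] at h1
    calc 2 ^ k * (X * (2 * r * B)) = r * (2 * (2 ^ k * (X * B))) := by ring
      _ ≤ ε := h1
  have h0 : (0 : LR.V n) ∈ oB n (2 * r) := zero_mem_oB (by linarith)
  have hsq : ∀ {y : LR.V n} {j : Fin n}, 4 * r < |y j| → 49 / 16 * r ^ 2 ≤ ∑ j, y j ^ 2 := by
    intro y j hj
    have h1 : y j ^ 2 ≤ ∑ j, y j ^ 2 :=
      Finset.single_le_sum (f := fun j => y j ^ 2) (fun i _ => sq_nonneg _) (Finset.mem_univ j)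
    have h2 : (4 * r) ^ 2 ≤ y j ^ 2 := by
      rw [← sq_abs (y j)]
      exact pow_le_pow_left₀ (by positivity) hj.le 2
    nlinarith
  intro c₁ c₂ hc1 hc2 hp1 hp2 hcoff A₁ A₂ hA1 hA2 hAoff hY1 hY2 hor
  refine hR r hr (f 0) (hfp 0 h0) (fun i j => ?_) ?_ Ω hΩ hreg hcn (fun y hy j => ?_) (exR r f)
    (exR_sm hr hf) (exR_pos hr hfp) ?_ (fun i j l hl y => ?_) c₁ c₂ hc1 hc2 hp1 hp2 hcoff A₁ A₂
    hA1 hA2 hAoff hY1 hY2 hor
  · have := hfb 0 h0 i j 0 (Nat.zero_le _)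
    rwa [norm_iteratedFDeriv_zero, Real.norm_eq_abs] at this
  · rwa [one_div] at hdet
  · have := abs_le_of_oB (R := 3 / 2 * r) (by positivity) (le_of_lt (hΩr hy)) j
    linarith
  · rintro y ⟨j, hj⟩
    exact exR_out hr (hsq hj)
  · exact (exR_near hr hr1 hB.le hk hX hX1 hf hfb i j l hl y).trans hr2

end Vale.Agent.P088.R2.H455.J

end
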